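import Mathlib

/-!
# The mean-one exponential law and the orthant integral (helper4)

`expLaw` is the law of a mean-one exponential variable on `ℝ`.  The main export is the bridge
`setIntegral_pi_Ioi_eq_integral_piExp`, turning the weighted Lebesgue integral over the positive
orthant used in statement S0423 into an expectation against the product probability measure
`Measure.pi fun _ => expLaw`.
-/

set_option autoImplicit false

open MeasureTheory Real Set
open scoped ENNReal

namespace Crest.Agent.Helper4

/-- The law of a mean-one exponential random variable, as a measure on `ℝ`. -/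
noncomputable def expLaw : Measure ℝ :=
  (volume.restrict (Ioi (0 : ℝ))).withDensity (fun x => ENNReal.ofReal (Real.exp (-x)))

lemma integrableOn_exp_neg_Ioi_zero : IntegrableOn (fun x : ℝ => Real.exp (-x)) (Ioi 0) := by
  simpa using exp_neg_integrableOn_Ioi 0 one_pos

lemma measurable_expDensity : Measurable (fun x : ℝ => ENNReal.ofReal (Real.exp (-x))) := by
  fun_prop

/-- Integrals against `expLaw` as weighted Lebesgue integrals over `(0, ∞)`. -/
lemma integral_expLaw (f : ℝ → ℝ) :
    ∫ x, f x ∂expLaw = ∫ x in Ioi (0 : ℝ), f x * Real.exp (-x) := by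
  unfold expLaw
  rw [integral_withDensity_eq_integral_toReal_smul measurable_expDensity
    (Filter.Eventually.of_forall fun x => ENNReal.ofReal_lt_top)]
  refine integral_congr_ae (Filter.Eventually.of_forall fun x => ?_)
  simp only [smul_eq_mul]
  rw [ENNReal.toReal_ofReal (Real.exp_pos _).le, mul_comm]

lemma expLaw_apply {s : Set ℝ} (hs : MeasurableSet s) :
    expLaw s = ENNReal.ofReal (∫ x in s ∩ Ioi 0, Real.exp (-x)) := by
  unfold expLaw
  rw [withDensity_apply _ hs, Measure.restrict_restrict hs,
    ofReal_integral_eq_lintegral_ofReal]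
  · exact integrableOn_exp_neg_Ioi_zero.mono_set inter_subset_right
  · exact Filter.Eventually.of_forall fun x => (Real.exp_pos _).le

instance isProbabilityMeasure_expLaw : IsProbabilityMeasure expLaw := by
  constructor
  rw [expLaw_apply MeasurableSet.univ, univ_inter, integral_exp_neg_Ioi_zero, ENNReal.ofReal_one]

/-- The product of `N` copies of `expLaw` is Lebesgue measure on the positive orthant weighted by
`exp (-(x_1 + ⋯ + x_N))`. -/
lemma pi_expLaw_eq (N : ℕ) :
    Measure.pi (fun _ : Fin N => expLaw) =
      ((volume : Measure (Fin N → ℝ)).restrict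
          (Set.pi Set.univ (fun _ : Fin N => Ioi (0 : ℝ)))).withDensity
        (fun x => ENNReal.ofReal (Real.exp (-∑ i, x i))) := by
  refine Measure.pi_eq (fun s hs => ?_)
  have hmeas : MeasurableSet (Set.pi Set.univ s) := MeasurableSet.univ_pi hs
  have hint : ∀ i, IntegrableOn (fun t : ℝ => Real.exp (-t)) (s i ∩ Ioi 0) := fun i =>
    integrableOn_exp_neg_Ioi_zero.mono_set inter_subset_right
  have hexp : ∀ x : Fin N → ℝ, Real.exp (-∑ i, x i) = ∏ i, Real.exp (-x i) := by
    intro x
    rw [← Finset.sum_neg_distrib, Real.exp_sum]
  rw [withDensity_apply _ hmeas, Measure.restrict_restrict hmeas, ← Set.pi_inter_distrib,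
    volume_pi, Measure.restrict_pi_pi]
  simp_rw [hexp]
  rw [← ofReal_integral_eq_lintegral_ofReal]
  · rw [integral_fintype_prod_eq_prod (fun _ : Fin N => fun t : ℝ => Real.exp (-t)),
      ENNReal.ofReal_prod_of_nonneg (fun i _ => integral_nonneg fun t => (Real.exp_pos _).le)]
    refine Finset.prod_congr rfl (fun i _ => ?_)
    rw [expLaw_apply (hs i)]
  · exact Integrable.fintype_prod (f := fun _ : Fin N => fun t : ℝ => Real.exp (-t)) hint
  · exact Filter.Eventually.of_forall fun x =>
      Finset.prod_nonneg fun i _ => (Real.exp_pos _).le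

/-- **Bridge lemma.**  The weighted Lebesgue integral over the positive orthant is the expectation
against the product of `N` mean-one exponential laws. -/
theorem setIntegral_pi_Ioi_eq_integral_piExp (N : ℕ) (F : (Fin N → ℝ) → ℝ) :
    ∫ x in Set.pi Set.univ (fun _ : Fin N => Ioi (0 : ℝ)), F x * Real.exp (-∑ i, x i)
      = ∫ x, F x ∂(Measure.pi fun _ : Fin N => expLaw) := by
  rw [pi_expLaw_eq, integral_withDensity_eq_integral_toReal_smul (by fun_prop)
    (Filter.Eventually.of_forall fun x => ENNReal.ofReal_lt_top)]
  refine integral_congr_ae (Filter.Eventually.of_forall fun x => ?_)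
  simp only [smul_eq_mul]
  rw [ENNReal.toReal_ofReal (Real.exp_pos _).le, mul_comm]

end Crest.Agent.Helper4
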