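import Mathlib
import Crest.Agent.Row125.Defs

/-!
# Row 125, package P4a2: the finite-height global models `G n` are reflexive

`G n` is isomorphic to the Hilbert space `ℓ²(vertices of length ≤ n)`.
-/

set_option autoImplicit false

namespace Crest.Agent.Helper4

open Crest.AnalysisR Crest.AnalysisR.TreePotential Crest.Agent.Row125
open scoped ENNReal RealInnerProductSpace

/-! ## Generic reflexivity facts (private copies, independent of other packages) -/

/-- Reflexivity passes along continuous linear equivalences. -/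
theorem reflexive_of_equiv' {X Y : Type*} [NormedAddCommGroup X] [NormedSpace ℝ X]
    [NormedAddCommGroup Y] [NormedSpace ℝ Y] (e : X ≃L[ℝ] Y) (hX : Reflexive X) : Reflexive Y := by
  intro Ψ
  let P : StrongDual ℝ X →L[ℝ] StrongDual ℝ Y :=
    (ContinuousLinearMap.compL ℝ Y X ℝ).flip (e.symm : Y →L[ℝ] X)
  obtain ⟨x, hx⟩ := hX (Ψ.comp P)
  refine ⟨e x, ?_⟩
  ext ψ
  have h1 := congrArg (fun Φ : StrongDual ℝ (StrongDual ℝ X) => Φ (ψ.comp (e : X →L[ℝ] Y))) hx
  simp only [NormedSpace.dual_def, ContinuousLinearMap.comp_apply] at h1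
  rw [NormedSpace.dual_def]
  have h2 : P (ψ.comp (e : X →L[ℝ] Y)) = ψ := by
    ext y
    simp [P]
  rw [h2] at h1
  simpa using h1

/-- Hilbert spaces are reflexive. -/
theorem reflexive_of_hilbert' (H : Type*) [NormedAddCommGroup H] [InnerProductSpace ℝ H]
    [CompleteSpace H] : Reflexive H := by
  intro Φ
  -- the functional `y ↦ Φ ⟪y, ·⟫`
  let ψl : H →ₗ[ℝ] ℝ :=
    { toFun := fun y => Φ (innerSL ℝ y)
      map_add' := fun y z => by simp [map_add]
      map_smul' := fun a y => by simp }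
  let ψ : StrongDual ℝ H := ψl.mkContinuous ‖Φ‖ (fun y => by
    calc ‖Φ (innerSL ℝ y)‖ ≤ ‖Φ‖ * ‖innerSL ℝ y‖ := Φ.le_opNorm _
      _ = ‖Φ‖ * ‖y‖ := by rw [innerSL_apply_norm])
  refine ⟨(InnerProductSpace.toDual ℝ H).symm ψ, ?_⟩
  ext φ
  rw [NormedSpace.dual_def]
  -- write `φ = ⟪y, ·⟫`
  set y := (InnerProductSpace.toDual ℝ H).symm φ with hy
  have hφ : φ = innerSL ℝ y := by
    ext z
    rw [innerSL_apply_apply, hy, InnerProductSpace.toDual_symm_apply]
  rw [hφ, innerSL_apply_apply, real_inner_comm, InnerProductSpace.toDual_symm_apply]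
  rfl

/-! ## The Hilbert model of `G n` -/

/-- vertices of length at most `n` -/
abbrev Idx (n : ℕ) : Type := {s : List ℕ // s.length ≤ n}

/-- `ℓ²` over the vertices of length at most `n` -/
abbrev HSp (n : ℕ) : Type := lp (fun _ : Idx n => ℝ) 2

lemma norm_rpow_two (x : ℝ) : ‖x‖ ^ (2 : ℝ≥0∞).toReal = x ^ 2 := by
  simp [Real.norm_eq_abs, sq_abs]

lemma restr_sum_le (n : ℕ) (f : PotentialTest .global) (s : Finset (Idx n)) :
    ∑ i ∈ s, ‖f.1 i.1‖ ^ (2 : ℝ≥0∞).toReal ≤ 1 := by
  have h := f.2.2 (s.map ⟨Subtype.val, Subtype.val_injective⟩)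
  rw [Finset.sum_map] at h
  simp only [norm_rpow_two]
  exact h

/-- restriction of a global test to the vertices of length at most `n`, as an `ℓ²` vector -/
noncomputable def restr (n : ℕ) (f : PotentialTest .global) : HSp n :=
  ⟨fun i => f.1 i.1, memℓp_gen' (restr_sum_le n f)⟩

lemma restr_apply (n : ℕ) (f : PotentialTest .global) (i : Idx n) : restr n f i = f.1 i.1 := rfl

lemma norm_restr_le (n : ℕ) (f : PotentialTest .global) : ‖restr n f‖ ≤ 1 := by
  refine lp.norm_le_of_forall_sum_le (by simp) zero_le_one (fun s => ?_)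
  have h := restr_sum_le n f s
  simp only [Real.one_rpow]
  exact h

/-- the map `c ↦ (f ↦ ⟪f|_{≤ n}, c⟫)` -/
noncomputable def Tfun (n : ℕ) (c : HSp n) : Amb .global :=
  ⟨fun f => ⟪restr n f, c⟫, memℓp_infty ⟨‖c‖, by
    rintro _ ⟨f, rfl⟩
    calc ‖⟪restr n f, c⟫‖ ≤ ‖restr n f‖ * ‖c‖ := norm_inner_le_norm _ _
      _ ≤ 1 * ‖c‖ := by gcongr; exact norm_restr_le n f
      _ = ‖c‖ := one_mul _⟩⟩

lemma Tfun_apply (n : ℕ) (c : HSp n) (f : PotentialTest .global) :
    (Tfun n c : PotentialTest .global → ℝ) f = ⟪restr n f, c⟫ := rfl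

lemma norm_Tfun_le (n : ℕ) (c : HSp n) : ‖Tfun n c‖ ≤ ‖c‖ := by
  refine lp.norm_le_of_forall_le (norm_nonneg _) (fun f => ?_)
  rw [Tfun_apply]
  calc ‖⟪restr n f, c⟫‖ ≤ ‖restr n f‖ * ‖c‖ := norm_inner_le_norm _ _
    _ ≤ 1 * ‖c‖ := by gcongr; exact norm_restr_le n f
    _ = ‖c‖ := one_mul _

noncomputable def Tlin (n : ℕ) : HSp n →ₗ[ℝ] Amb .global where
  toFun := Tfun n
  map_add' c d := by
    ext f
    simp [Tfun_apply, inner_add_right]
  map_smul' a c := by
    ext f
    simp [Tfun_apply, inner_smul_right]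

/-- the continuous linear map `T : ℓ² → ℓ^∞(tests)` -/
noncomputable def T (n : ℕ) : HSp n →L[ℝ] Amb .global :=
  (Tlin n).mkContinuous 1 (fun c => by rw [one_mul]; exact norm_Tfun_le n c)

lemma T_apply (n : ℕ) (c : HSp n) (f : PotentialTest .global) :
    (T n c : PotentialTest .global → ℝ) f = ⟪restr n f, c⟫ := rfl

/-! ## The lower bound `‖c‖ ≤ √(n+1) ‖T c‖` -/

/-- Sums along a root path are bounded by any uniform bound on finite sums. -/
lemma pathPotential_le_of_sum_le (g : List ℕ → ℝ) (C : ℝ)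
    (hg : ∀ A : Finset (List ℕ), ∑ u ∈ A, g u ≤ C) (s : List ℕ) :
    ∀ A : Finset (List ℕ), (∀ u ∈ A, ¬ u <:+ s) → pathPotential g s + ∑ u ∈ A, g u ≤ C := by
  induction s with
  | nil =>
    intro A hA
    have hnot : [] ∉ A := fun h => hA [] h (List.suffix_refl _)
    have := hg (insert [] A)
    rw [Finset.sum_insert hnot] at this
    simpa [pathPotential] using this
  | cons a v ih =>
    intro A hA
    have hnot : (a :: v) ∉ A := fun h => hA _ h (List.suffix_refl _)
    have := ih (insert (a :: v) A) (by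
      intro u hu
      rcases Finset.mem_insert.mp hu with rfl | hu
      · intro hsuf
        have := hsuf.length_le
        simp at this
      · intro hsuf
        exact hA u hu (hsuf.trans (List.suffix_cons a v)))
    rw [Finset.sum_insert hnot] at this
    simp only [pathPotential]
    linarith

/-- Cauchy–Schwarz along a root path, for families vanishing above height `n`. -/
lemma pathPotential_sq_le (n : ℕ) (f : List ℕ → ℝ) (hf : ∀ u, n < u.length → f u = 0)
    (s : List ℕ) :
    pathPotential f s ^ 2 ≤ (((min s.length n : ℕ) : ℝ) + 1) * pathPotential (fun u => f u ^ 2) s := by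
  induction s with
  | nil => simp [pathPotential]
  | cons a v ih =>
    simp only [pathPotential]
    by_cases h : (a :: v).length ≤ n
    · have h1 : min (a :: v).length n = v.length + 1 := by
        simp only [List.length_cons] at h ⊢
        omega
      have h2 : min v.length n = v.length := by
        simp only [List.length_cons] at h
        omega
      rw [h1]
      rw [h2] at ih
      push_cast
      set P := pathPotential f v
      set Q := pathPotential (fun u => f u ^ 2) v
      set x := f (a :: v)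
      set m : ℝ := (v.length : ℝ) + 1 with hm
      have hmpos : 0 < m := by positivity
      have key : 2 * P * x ≤ Q + m * x ^ 2 := by
        by_contra hneg
        push Not at hneg
        nlinarith [sq_nonneg (P - m * x)]
      nlinarith
    · have hz : f (a :: v) = 0 := hf _ (not_le.mp h)
      have h1 : min (a :: v).length n = min v.length n := by
        simp only [List.length_cons] at h ⊢
        omega
      rw [hz, h1]
      simpa using ih

/-- the normalised test attached to `c` -/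
noncomputable def tst (n : ℕ) (c : HSp n) : List ℕ → ℝ := fun u =>
  if h : u.length ≤ n then (1 / (Real.sqrt ((n : ℝ) + 1) * ‖c‖)) * c ⟨u, h⟩ else 0

lemma tst_sq_sum (n : ℕ) (c : HSp n) (hc : c ≠ 0) (A : Finset (List ℕ)) :
    ∑ u ∈ A, tst n c u ^ 2 ≤ 1 / ((n : ℝ) + 1) := by
  have hpos : 0 < ‖c‖ := norm_pos_iff.mpr hc
  have hn : (0 : ℝ) < (n : ℝ) + 1 := by positivity
  set κ : ℝ := 1 / (Real.sqrt ((n : ℝ) + 1) * ‖c‖) with hκ
  have h1 : ∑ u ∈ A, tst n c u ^ 2
      = ∑ i ∈ A.subtype (fun u => u.length ≤ n), tst n c i.1 ^ 2 := by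
    rw [Finset.sum_subtype_eq_sum_filter (f := fun u => tst n c u ^ 2), Finset.sum_filter]
    apply Finset.sum_congr rfl
    intro u _
    by_cases h : u.length ≤ n
    · simp [h]
    · simp [tst, h]
  have h2 : ∀ i : Idx n, tst n c i.1 ^ 2 = κ ^ 2 * ‖c i‖ ^ (2 : ℝ≥0∞).toReal := by
    intro i
    rw [norm_rpow_two]
    simp only [tst, i.2, dif_pos, Subtype.coe_eta]
    rw [mul_pow]
  rw [h1, Finset.sum_congr rfl (fun i _ => h2 i), ← Finset.mul_sum]
  have h3 := lp.sum_rpow_le_norm_rpow (p := 2) (by simp) c (A.subtype (fun u => u.length ≤ n))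
  have h4 : ‖c‖ ^ (2 : ℝ≥0∞).toReal = ‖c‖ ^ 2 := by simp
  rw [h4] at h3
  calc κ ^ 2 * ∑ i ∈ A.subtype (fun u => u.length ≤ n), ‖c i‖ ^ (2 : ℝ≥0∞).toReal
      ≤ κ ^ 2 * ‖c‖ ^ 2 := by gcongr
    _ = 1 / ((n : ℝ) + 1) := by
        rw [hκ, div_pow, mul_pow, Real.sq_sqrt hn.le]
        field_simp

lemma tst_isTest (n : ℕ) (c : HSp n) (hc : c ≠ 0) : IsTest .global (tst n c) := by
  have hn : (0 : ℝ) < (n : ℝ) + 1 := by positivity
  have hle : 1 / ((n : ℝ) + 1) ≤ 1 := by
    rw [div_le_one hn]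
    linarith
  refine ⟨fun s => ?_, fun A => (tst_sq_sum n c hc A).trans hle⟩
  have h1 := pathPotential_sq_le n (tst n c) (fun u hu => by simp [tst, not_le.mpr hu]) s
  have h2 := pathPotential_le_of_sum_le (fun u => tst n c u ^ 2) (1 / ((n : ℝ) + 1))
    (tst_sq_sum n c hc) s ∅ (by simp)
  simp only [Finset.sum_empty, add_zero] at h2
  have h3 : (((min s.length n : ℕ) : ℝ) + 1) ≤ (n : ℝ) + 1 := by
    have : min s.length n ≤ n := min_le_right _ _
    have : ((min s.length n : ℕ) : ℝ) ≤ (n : ℝ) := by exact_mod_cast this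
    linarith
  have hm : (0 : ℝ) < ((min s.length n : ℕ) : ℝ) + 1 := by positivity
  have hQ : 0 ≤ pathPotential (fun u => tst n c u ^ 2) s := by
    by_contra hneg
    push Not at hneg
    nlinarith [sq_nonneg (pathPotential (tst n c) s)]
  have h4 : pathPotential (tst n c) s ^ 2 ≤ 1 := by
    calc pathPotential (tst n c) s ^ 2
        ≤ (((min s.length n : ℕ) : ℝ) + 1) * pathPotential (fun u => tst n c u ^ 2) s := h1
      _ ≤ ((n : ℝ) + 1) * (1 / ((n : ℝ) + 1)) := mul_le_mul h3 h2 hQ hn.le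
      _ = 1 := by field_simp
  exact (sq_le_one_iff_abs_le_one _).mp h4

lemma restr_tst (n : ℕ) (c : HSp n) (hc : c ≠ 0) :
    restr n ⟨tst n c, tst_isTest n c hc⟩ = (1 / (Real.sqrt ((n : ℝ) + 1) * ‖c‖)) • c := by
  ext i
  simp [restr_apply, tst, i.2]

lemma norm_le_T (n : ℕ) (c : HSp n) : ‖c‖ ≤ Real.sqrt ((n : ℝ) + 1) * ‖T n c‖ := by
  by_cases hc : c = 0
  · simp [hc]
  have hpos : 0 < ‖c‖ := norm_pos_iff.mpr hc
  have hn : (0 : ℝ) < (n : ℝ) + 1 := by positivity
  have hsq : 0 < Real.sqrt ((n : ℝ) + 1) := Real.sqrt_pos.mpr hn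
  have h := lp.norm_apply_le_norm (by simp) (T n c) ⟨tst n c, tst_isTest n c hc⟩
  have hval : (T n c : PotentialTest .global → ℝ) ⟨tst n c, tst_isTest n c hc⟩
      = ‖c‖ / Real.sqrt ((n : ℝ) + 1) := by
    rw [T_apply, restr_tst n c hc, real_inner_smul_left, real_inner_self_eq_norm_sq]
    field_simp
  rw [hval, Real.norm_eq_abs, abs_of_nonneg (by positivity), div_le_iff₀ hsq] at h
  linarith

lemma T_antilipschitz (n : ℕ) :
    AntilipschitzWith ⟨Real.sqrt ((n : ℝ) + 1), Real.sqrt_nonneg _⟩ (T n) :=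
  ContinuousLinearMap.antilipschitz_of_bound _ (fun c => norm_le_T n c)

lemma T_injective (n : ℕ) : Function.Injective (T n) := (T_antilipschitz n).injective

lemma T_isClosed_range (n : ℕ) : IsClosed (Set.range (T n)) :=
  (T_antilipschitz n).isClosed_range (T n).uniformContinuous

/-! ## The range of `T` is `G n` -/

lemma T_single (n : ℕ) (i : Idx n) (a : ℝ) :
    T n (lp.single 2 i a) = a • coordVector .global i.1 := by
  ext f
  rw [T_apply, lp.inner_single_right]
  simp [restr_apply, coordVector]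

lemma range_T (n : ℕ) : (T n).range = G n := by
  apply le_antisymm
  · rintro _ ⟨c, rfl⟩
    have hs := (T n).hasSum (lp.hasSum_single (by simp : (2 : ℝ≥0∞) ≠ ⊤) c)
    refine (Submodule.isClosed_topologicalClosure _).mem_of_tendsto hs
      (Filter.Eventually.of_forall fun s => ?_)
    apply Submodule.sum_mem
    intro i _
    rw [T_single]
    exact Submodule.smul_mem _ _
      (Submodule.le_topologicalClosure _ (Submodule.subset_span ⟨i.1, i.2, rfl⟩))
  · apply Submodule.topologicalClosure_minimal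
    · rw [Submodule.span_le]
      rintro _ ⟨s, hs, rfl⟩
      refine ⟨lp.single 2 ⟨s, hs⟩ 1, ?_⟩
      have h := T_single n ⟨s, hs⟩ 1
      rw [one_smul] at h
      exact h
    · exact T_isClosed_range n

/-- `G n` is isomorphic to a Hilbert space. -/
theorem G_equiv (n : ℕ) : Nonempty (lp (fun _ : {s : List ℕ // s.length ≤ n} => ℝ) 2 ≃L[ℝ] G n) := by
  rw [← range_T n]
  exact ⟨(T n).equivRange (T_injective n) (T_isClosed_range n)⟩

/-- **P4a2**: the finite-height global models are reflexive. -/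
theorem G_reflexive (n : ℕ) : Reflexive (G n) := by
  obtain ⟨e⟩ := G_equiv n
  exact reflexive_of_equiv' e (reflexive_of_hilbert' _)

end Crest.Agent.Helper4
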