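import Mathlib

/-!
# Row 211 (S0326): uniform estimates for a `C¹` map near a compact set (helper4)
-/

set_option autoImplicit false

namespace Crest.Agent.Helper4.R211

variable {E F : Type*} [NormedAddCommGroup E] [NormedSpace ℝ E]
  [NormedAddCommGroup F] [NormedSpace ℝ F]

/-- **Uniform first-order Taylor remainder** of a `C¹` map near a compact set. -/
theorem c1_uniform [FiniteDimensional ℝ E] (D U : Set E) (hD : IsCompact D) (hU : IsOpen U) (hDU : D ⊆ U) (V : E → F)
    (hV : ContDiffOn ℝ 1 V U) (ε : ℝ) (hε : 0 < ε) :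
    ∃ η : ℝ, 0 < η ∧ ∀ p₀ ∈ D, ∀ p : E, ‖p - p₀‖ ≤ η →
      p ∈ U ∧ ‖V p - V p₀ - fderiv ℝ V p₀ (p - p₀)‖ ≤ ε * ‖p - p₀‖ := by
  obtain ⟨r, hr, hrU⟩ := hD.exists_cthickening_subset_open hU hDU
  have hKc : IsCompact (Metric.cthickening r D) := hD.cthickening
  have hcont : ContinuousOn (fderiv ℝ V) U := hV.continuousOn_fderiv_of_isOpen hU le_rfl
  have huc : UniformContinuousOn (fderiv ℝ V) (Metric.cthickening r D) :=
    hKc.uniformContinuousOn_of_continuous (hcont.mono hrU)
  rw [Metric.uniformContinuousOn_iff] at huc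
  obtain ⟨η₁, hη₁, hη₁'⟩ := huc ε hε
  refine ⟨min r η₁ / 2, by positivity, ?_⟩
  intro p₀ hp₀ p hp
  have hηr : min r η₁ / 2 ≤ r := by
    have := min_le_left r η₁
    linarith
  have hηη : min r η₁ / 2 < η₁ := by
    have := min_le_right r η₁
    linarith
  have hball : Metric.closedBall p₀ (min r η₁ / 2) ⊆ Metric.cthickening r D :=
    (Metric.closedBall_subset_closedBall hηr).trans (Metric.closedBall_subset_cthickening hp₀ r)
  have hpball : p ∈ Metric.closedBall p₀ (min r η₁ / 2) := by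
    rw [Metric.mem_closedBall, dist_eq_norm]
    exact hp
  have hp₀ball : p₀ ∈ Metric.closedBall p₀ (min r η₁ / 2) :=
    Metric.mem_closedBall_self (by positivity)
  refine ⟨hrU (hball hpball), ?_⟩
  apply (convex_closedBall p₀ (min r η₁ / 2)).norm_image_sub_le_of_norm_fderiv_le'
    (f := V) (φ := fderiv ℝ V p₀) ?_ ?_ hp₀ball hpball
  · intro x hx
    exact (hV.differentiableOn one_ne_zero).differentiableAt (hU.mem_nhds (hrU (hball hx)))
  · intro x hx
    have hd : dist x p₀ < η₁ := lt_of_le_of_lt (Metric.mem_closedBall.mp hx) hηη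
    have := hη₁' x (hball hx) p₀ (hball hp₀ball) hd
    rw [dist_eq_norm] at this
    exact this.le

/-- the derivative of a `C¹` map is bounded on a compact set -/
theorem exists_fderiv_bound (D U : Set E) (hD : IsCompact D) (hU : IsOpen U) (hDU : D ⊆ U)
    (V : E → F) (hV : ContDiffOn ℝ 1 V U) :
    ∃ M : ℝ, 0 ≤ M ∧ ∀ p ∈ D, ‖fderiv ℝ V p‖ ≤ M := by
  have hcont : ContinuousOn (fderiv ℝ V) U := hV.continuousOn_fderiv_of_isOpen hU le_rfl
  obtain ⟨M, hM⟩ := hD.exists_bound_of_continuousOn (hcont.mono hDU)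
  exact ⟨max M 0, le_max_right _ _, fun p hp => (hM p hp).trans (le_max_left _ _)⟩

/-- a `C¹` map is bounded on a compact set -/
theorem exists_bound (D U : Set E) (hD : IsCompact D) (hDU : D ⊆ U)
    (V : E → F) (hV : ContDiffOn ℝ 1 V U) :
    ∃ M : ℝ, 0 ≤ M ∧ ∀ p ∈ D, ‖V p‖ ≤ M := by
  obtain ⟨M, hM⟩ := hD.exists_bound_of_continuousOn (hV.continuousOn.mono hDU)
  exact ⟨max M 0, le_max_right _ _, fun p hp => (hM p hp).trans (le_max_left _ _)⟩

end Crest.Agent.Helper4.R211
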