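import Mathlib
import Crest.Agent.Helper9.Area
import Crest.Agent.Helper9.Proj

/-!
# Row 211: relatively open bases (helper4)

`open_pgram_base`: a nondegenerate parallelogram `c + [0,1] a + [0,1] b` in the plane `u^⊥` is
contained in a bounded relatively open subset of `u^⊥` whose area exceeds that of the
parallelogram by at most the factor `1 + η`.
-/

set_option autoImplicit false
open MeasureTheory
open Crest.Agent.Helper9.Area

namespace Crest.Agent.Helper4.R211

/-- Cramer's rule: a vector orthogonal to `a`, `b`, `u` vanishes when `triple a b u ≠ 0`. -/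
theorem eq_zero_of_perp_three (a b u y : E3) (hT : triple a b u ≠ 0)
    (hya : inner ℝ y a = 0) (hyb : inner ℝ y b = 0) (hyu : inner ℝ y u = 0) : y = 0 := by
  rw [inner_coord] at hya hyb hyu
  have h0 : triple a b u * y 0 = 0 := by
    unfold triple
    linear_combination (b 1 * u 2 - b 2 * u 1) * hya - (a 1 * u 2 - a 2 * u 1) * hyb
      + (a 1 * b 2 - a 2 * b 1) * hyu
  have h1 : triple a b u * y 1 = 0 := by
    unfold triple
    linear_combination -(b 0 * u 2 - b 2 * u 0) * hya + (a 0 * u 2 - a 2 * u 0) * hyb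
      - (a 0 * b 2 - a 2 * b 0) * hyu
  have h2 : triple a b u * y 2 = 0 := by
    unfold triple
    linear_combination (b 0 * u 1 - b 1 * u 0) * hya - (a 0 * u 1 - a 1 * u 0) * hyb
      + (a 0 * b 1 - a 1 * b 0) * hyu
  ext i
  fin_cases i
  · simpa using (mul_eq_zero.mp h0).resolve_left hT
  · simpa using (mul_eq_zero.mp h1).resolve_left hT
  · simpa using (mul_eq_zero.mp h2).resolve_left hT

/-- first dual coordinate of `x - c` with respect to `a, b` -/
noncomputable def dualA (c a b x : E3) : ℝ :=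
  (‖b‖ ^ 2 * inner ℝ (x - c) a - inner ℝ a b * inner ℝ (x - c) b) / gram a b

/-- second dual coordinate of `x - c` with respect to `a, b` -/
noncomputable def dualB (c a b x : E3) : ℝ :=
  (‖a‖ ^ 2 * inner ℝ (x - c) b - inner ℝ a b * inner ℝ (x - c) a) / gram a b

theorem continuous_dualA (c a b : E3) : Continuous (dualA c a b) := by
  unfold dualA
  fun_prop

theorem continuous_dualB (c a b : E3) : Continuous (dualB c a b) := by
  unfold dualB
  fun_prop

theorem dualA_par (c a b : E3) (hpos : 0 < gram a b) (s t : ℝ) :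
    dualA c a b (c + s • a + t • b) = s := by
  have hG : gram a b ≠ 0 := hpos.ne'
  unfold dualA
  rw [div_eq_iff hG]
  have e : c + s • a + t • b - c = s • a + t • b := by abel
  rw [e, inner_add_left, inner_add_left, inner_smul_left, inner_smul_left, inner_smul_left,
    inner_smul_left, real_inner_self_eq_norm_sq, real_inner_self_eq_norm_sq, real_inner_comm a b]
  simp only [conj_trivial]
  unfold gram
  ring

theorem dualB_par (c a b : E3) (hpos : 0 < gram a b) (s t : ℝ) :
    dualB c a b (c + s • a + t • b) = t := by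
  have hG : gram a b ≠ 0 := hpos.ne'
  unfold dualB
  rw [div_eq_iff hG]
  have e : c + s • a + t • b - c = s • a + t • b := by abel
  rw [e, inner_add_left, inner_add_left, inner_smul_left, inner_smul_left, inner_smul_left,
    inner_smul_left, real_inner_self_eq_norm_sq, real_inner_self_eq_norm_sq, real_inner_comm a b]
  simp only [conj_trivial]
  unfold gram
  ring

/-- In the plane `u^⊥` spanned by `a, b`, a point is recovered from its dual coordinates. -/
theorem eq_par_of_perp (u c a b x : E3) (hu : ‖u‖ = 1) (hc : inner ℝ c u = 0)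
    (ha : inner ℝ a u = 0) (hb : inner ℝ b u = 0) (hpos : 0 < gram a b)
    (hx : inner ℝ x u = 0) : x = c + dualA c a b x • a + dualB c a b x • b := by
  have hG : gram a b ≠ 0 := hpos.ne'
  have hT : triple a b u ≠ 0 := by
    have h := triple_sq_of_perp u a b hu ha hb
    intro h0
    rw [h0] at h
    have : gram a b = 0 := by rw [← h]; ring
    exact hG this
  have alg1 : ∀ X Y I na nb G : ℝ, G ≠ 0 → na * nb - I ^ 2 = G →
      X - (nb * X - I * Y) / G * na - (na * Y - I * X) / G * I = 0 := by
    intro X Y I na nb G hG0 hGe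
    field_simp
    rw [← hGe]
    ring
  have alg2 : ∀ X Y I na nb G : ℝ, G ≠ 0 → na * nb - I ^ 2 = G →
      Y - (nb * X - I * Y) / G * I - (na * Y - I * X) / G * nb = 0 := by
    intro X Y I na nb G hG0 hGe
    field_simp
    rw [← hGe]
    ring
  have key : x - c - dualA c a b x • a - dualB c a b x • b = 0 := by
    apply eq_zero_of_perp_three a b u _ hT
    · have := alg1 (inner ℝ (x - c) a) (inner ℝ (x - c) b) (inner ℝ a b) (‖a‖ ^ 2) (‖b‖ ^ 2)
        (gram a b) hG rfl
      simp only [inner_sub_left, inner_smul_left, conj_trivial, real_inner_self_eq_norm_sq,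
        real_inner_comm a b]
      unfold dualA dualB
      simp only [inner_sub_left] at this ⊢
      linarith
    · have := alg2 (inner ℝ (x - c) a) (inner ℝ (x - c) b) (inner ℝ a b) (‖a‖ ^ 2) (‖b‖ ^ 2)
        (gram a b) hG rfl
      simp only [inner_sub_left, inner_smul_left, conj_trivial, real_inner_self_eq_norm_sq]
      unfold dualA dualB
      simp only [inner_sub_left] at this ⊢
      linarith
    · simp only [inner_sub_left, inner_smul_left, conj_trivial, hx, hc, ha, hb]
      ring
  have : x = (x - c - dualA c a b x • a - dualB c a b x • b)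
      + (c + dualA c a b x • a + dualB c a b x • b) := by abel
  rw [key, zero_add] at this
  exact this

/-- **Open bases.** A nondegenerate parallelogram in the plane `u^⊥` is contained in a bounded
relatively open subset of that plane of area at most `(1 + η)` times its own. -/
theorem open_pgram_base (u c a b : E3) (hu : ‖u‖ = 1) (hc : inner ℝ c u = 0)
    (ha : inner ℝ a u = 0) (hb : inner ℝ b u = 0) (hpos : 0 < gram a b) (η : ℝ) (hη : 0 < η) :
    ∃ B : Set E3, Bornology.IsBounded B ∧
      (∃ O : Set E3, IsOpen O ∧ B = O ∩ {x | inner ℝ x u = 0}) ∧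
      {x : E3 | ∃ s ∈ Set.Icc (0 : ℝ) 1, ∃ t ∈ Set.Icc (0 : ℝ) 1, x = c + s • a + t • b} ⊆ B ∧
      μHE[2] B ≤ ENNReal.ofReal ((1 + η) * Real.sqrt (gram a b)) := by
  set θ : ℝ := min (η / 8) 1 with hθ
  have hθ0 : 0 < θ := lt_min (by positivity) one_pos
  have hθ1 : θ ≤ 1 := min_le_right _ _
  have hθη : θ ≤ η / 8 := min_le_left _ _
  set O : Set E3 := {x | (-θ < dualA c a b x ∧ dualA c a b x < 1 + θ) ∧
    (-θ < dualB c a b x ∧ dualB c a b x < 1 + θ)} with hO
  have hOopen : IsOpen O := by
    have h1 : IsOpen {x : E3 | -θ < dualA c a b x} :=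
      isOpen_lt continuous_const (continuous_dualA c a b)
    have h2 : IsOpen {x : E3 | dualA c a b x < 1 + θ} :=
      isOpen_lt (continuous_dualA c a b) continuous_const
    have h3 : IsOpen {x : E3 | -θ < dualB c a b x} :=
      isOpen_lt continuous_const (continuous_dualB c a b)
    have h4 : IsOpen {x : E3 | dualB c a b x < 1 + θ} :=
      isOpen_lt (continuous_dualB c a b) continuous_const
    exact (h1.inter h2).inter (h3.inter h4)
  have hrep : ∀ x ∈ O ∩ {x | inner ℝ x u = 0},
      x = c + dualA c a b x • a + dualB c a b x • b := fun x hx =>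
    eq_par_of_perp u c a b x hu hc ha hb hpos hx.2
  refine ⟨O ∩ {x | inner ℝ x u = 0}, ?_, ⟨O, hOopen, rfl⟩, ?_, ?_⟩
  · -- bounded
    rw [isBounded_iff_forall_norm_le]
    refine ⟨‖c‖ + (1 + θ) * ‖a‖ + (1 + θ) * ‖b‖, fun x hx => ?_⟩
    have h := hrep x hx
    obtain ⟨⟨⟨h1, h2⟩, h3, h4⟩, -⟩ := hx
    rw [h]
    have hA : |dualA c a b x| ≤ 1 + θ := abs_le.mpr ⟨by linarith, h2.le⟩
    have hB : |dualB c a b x| ≤ 1 + θ := abs_le.mpr ⟨by linarith, h4.le⟩
    calc ‖c + dualA c a b x • a + dualB c a b x • b‖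
        ≤ ‖c‖ + ‖dualA c a b x • a‖ + ‖dualB c a b x • b‖ := norm_add₃_le
      _ = ‖c‖ + |dualA c a b x| * ‖a‖ + |dualB c a b x| * ‖b‖ := by
          rw [norm_smul, norm_smul, Real.norm_eq_abs, Real.norm_eq_abs]
      _ ≤ ‖c‖ + (1 + θ) * ‖a‖ + (1 + θ) * ‖b‖ := by
          gcongr
  · -- contains the parallelogram
    rintro x ⟨s, hs, t, ht, rfl⟩
    refine ⟨⟨?_, ?_⟩, ?_⟩
    · rw [dualA_par c a b hpos]
      exact ⟨by linarith [hs.1], by linarith [hs.2]⟩
    · rw [dualB_par c a b hpos]
      exact ⟨by linarith [ht.1], by linarith [ht.2]⟩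
    · show inner ℝ (c + s • a + t • b) u = 0
      rw [inner_add_left, inner_add_left, inner_smul_left, inner_smul_left, hc, ha, hb]
      simp
  · -- area
    have hsub : O ∩ {x | inner ℝ x u = 0} ⊆
        {x : E3 | ∃ s ∈ Set.Icc (0 : ℝ) 1, ∃ t ∈ Set.Icc (0 : ℝ) 1,
          x = (c - θ • a - θ • b) + s • ((1 + 2 * θ) • a) + t • ((1 + 2 * θ) • b)} := by
      intro x hx
      have h := hrep x hx
      obtain ⟨⟨⟨h1, h2⟩, h3, h4⟩, -⟩ := hx
      have hpos' : 0 < 1 + 2 * θ := by linarith
      refine ⟨(dualA c a b x + θ) / (1 + 2 * θ), ⟨div_nonneg (by linarith) hpos'.le, ?_⟩,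
        (dualB c a b x + θ) / (1 + 2 * θ), ⟨div_nonneg (by linarith) hpos'.le, ?_⟩, ?_⟩
      · rw [div_le_one hpos']; linarith
      · rw [div_le_one hpos']; linarith
      · rw [smul_smul, smul_smul, div_mul_cancel₀ _ hpos'.ne', div_mul_cancel₀ _ hpos'.ne']
        nth_rewrite 1 [h]
        module
    refine (measure_mono hsub).trans ?_
    rw [area_parallelogram, gram_smul_left, gram_smul_right]
    apply ENNReal.ofReal_le_ofReal
    have e : (1 + 2 * θ) ^ 2 * ((1 + 2 * θ) ^ 2 * gram a b) = ((1 + 2 * θ) ^ 2) ^ 2 * gram a b := by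
      ring
    rw [e, Real.sqrt_mul (by positivity), Real.sqrt_sq (by positivity)]
    have hsq : (1 + 2 * θ) ^ 2 ≤ 1 + η := by nlinarith
    exact mul_le_mul_of_nonneg_right hsq (Real.sqrt_nonneg _)

end Crest.Agent.Helper4.R211
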