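import Mathlib
import Crest.Agent.Helper9.Area
import Crest.Agent.Helper9.Proj

/-!
# Row 211: padding of a cylinder cover, and S0324 / S0325(2) from one good cover (helper4)

* `pad_cover`: a cover by `m` triangle cylinders of total base area `≤ T` can be padded to a cover
  by any `n ≥ m + 1` triangle cylinders of total base area exactly `T` (one filler triangle and
  degenerate triangles).
* `GoodCover`: the statement exported by the explicit-cover package.
* `s0325_part2_of`, `s0324_of`: the two statements from a good cover and the projection bounds.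
-/

set_option autoImplicit false
open MeasureTheory
open scoped ENNReal
open Crest.Agent.Helper9.Area

namespace Crest.Agent.Helper4.R211

/-- the standard regular tetrahedron (the literal of the statements) -/
noncomputable abbrev K0 : Set E3 :=
  convexHull ℝ {!₂[1, 0, 0], !₂[-1, 0, 0], !₂[0, 1, Real.sqrt 2], !₂[0, -1, Real.sqrt 2]}

/-- the statement of the explicit cover package -/
def GoodCover : Prop :=
  ∃ (m : ℕ) (u p q r : Fin m → E3), m ≤ 15999999 ∧ (∀ i, ‖u i‖ = 1) ∧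
    (∀ i, inner ℝ (p i) (u i) = 0 ∧ inner ℝ (q i) (u i) = 0 ∧ inner ℝ (r i) (u i) = 0) ∧
    (∀ i, 0 < gram (q i - p i) (r i - p i)) ∧
    K0 ⊆ ⋃ i, {x : E3 | ∃ b ∈ convexHull ℝ {p i, q i, r i}, ∃ t : ℝ, x = b + t • u i} ∧
    ∑ i, Real.sqrt (gram (q i - p i) (r i - p i)) / 2 ≤ Real.sqrt 2 * (1 / 2 - 6 / 10 ^ 10)

theorem area_zero_triangle :
    (μHE[2] (convexHull ℝ ({(0 : E3), 0, 0} : Set E3))).toReal = 0 := by
  rw [area_triangle_toReal]
  simp [gram_zero_left]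

theorem gram_filler (s : ℝ) : gram (!₂[s, 0, 0] : E3) (!₂[0, s, 0] : E3) = (s ^ 2) ^ 2 := by
  rw [gram_coord]
  simp
  ring

theorem area_filler (A : ℝ) (hA : 0 ≤ A) :
    (μHE[2] (convexHull ℝ ({(0 : E3), !₂[Real.sqrt (2 * A), 0, 0], !₂[0, Real.sqrt (2 * A), 0]}
      : Set E3))).toReal = A := by
  rw [area_triangle_toReal, sub_zero, sub_zero, gram_filler, Real.sqrt_sq (by positivity),
    Real.sq_sqrt (by positivity)]
  ring

/-- **Padding.** -/
theorem pad_cover (K : Set E3) {m : ℕ} (u p q r : Fin m → E3)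
    (hu : ∀ i, ‖u i‖ = 1)
    (hperp : ∀ i, inner ℝ (p i) (u i) = 0 ∧ inner ℝ (q i) (u i) = 0 ∧ inner ℝ (r i) (u i) = 0)
    (hcov : K ⊆ ⋃ i, {x : E3 | ∃ b ∈ convexHull ℝ {p i, q i, r i}, ∃ t : ℝ, x = b + t • u i})
    (n : ℕ) (hn : m + 1 ≤ n) (T : ℝ)
    (hT : ∑ i, (μHE[2] (convexHull ℝ ({p i, q i, r i} : Set E3))).toReal ≤ T) :
    ∃ (u' p' q' r' : Fin n → E3), (∀ i, ‖u' i‖ = 1) ∧
      (∀ i, inner ℝ (p' i) (u' i) = 0 ∧ inner ℝ (q' i) (u' i) = 0 ∧ inner ℝ (r' i) (u' i) = 0) ∧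
      K ⊆ ⋃ i, {x : E3 | ∃ b ∈ convexHull ℝ {p' i, q' i, r' i}, ∃ t : ℝ, x = b + t • u' i} ∧
      ∑ i, (μHE[2] (convexHull ℝ ({p' i, q' i, r' i} : Set E3))).toReal = T := by
  set A : ℝ := T - ∑ i, (μHE[2] (convexHull ℝ ({p i, q i, r i} : Set E3))).toReal with hA
  have hA0 : 0 ≤ A := by rw [hA]; linarith
  set s : ℝ := Real.sqrt (2 * A) with hs
  let e3 : E3 := !₂[0, 0, 1]
  have he3 : ‖e3‖ = 1 := by
    have : ‖e3‖ ^ 2 = 1 := by
      rw [norm_sq_coord]
      simp [e3]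
    have h0 : 0 ≤ ‖e3‖ := norm_nonneg _
    nlinarith
  let u' : Fin n → E3 := fun i => if h : (i : ℕ) < m then u ⟨i, h⟩ else e3
  let p' : Fin n → E3 := fun i => if h : (i : ℕ) < m then p ⟨i, h⟩ else 0
  let q' : Fin n → E3 := fun i => if h : (i : ℕ) < m then q ⟨i, h⟩ else
    if (i : ℕ) = m then !₂[s, 0, 0] else 0
  let r' : Fin n → E3 := fun i => if h : (i : ℕ) < m then r ⟨i, h⟩ else
    if (i : ℕ) = m then !₂[0, s, 0] else 0
  refine ⟨u', p', q', r', ?_, ?_, ?_, ?_⟩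
  · intro i
    by_cases h : (i : ℕ) < m
    · simp only [u', dif_pos h]; exact hu _
    · simp only [u', dif_neg h]; exact he3
  · intro i
    by_cases h : (i : ℕ) < m
    · simp only [u', p', q', r', dif_pos h]; exact hperp _
    · by_cases h2 : (i : ℕ) = m
      · simp only [u', p', q', r', dif_neg h, if_pos h2]
        refine ⟨by simp, ?_, ?_⟩
        · rw [inner_coord]; simp [e3]
        · rw [inner_coord]; simp [e3]
      · simp only [u', p', q', r', dif_neg h, if_neg h2]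
        simp
  · intro x hx
    obtain ⟨i, hi⟩ := Set.mem_iUnion.mp (hcov hx)
    refine Set.mem_iUnion.mpr ⟨⟨i, lt_of_lt_of_le i.2 (by omega)⟩, ?_⟩
    have h : ((⟨i, lt_of_lt_of_le i.2 (by omega)⟩ : Fin n) : ℕ) < m := i.2
    simp only [u', p', q', r', dif_pos h]
    exact hi
  · -- the sum
    let g : ℕ → ℝ := fun j => if h : j < m then
        (μHE[2] (convexHull ℝ ({p ⟨j, h⟩, q ⟨j, h⟩, r ⟨j, h⟩} : Set E3))).toReal
      else if j = m then A else 0
    have hF : ∀ i : Fin n,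
        (μHE[2] (convexHull ℝ ({p' i, q' i, r' i} : Set E3))).toReal = g i := by
      intro i
      by_cases h : (i : ℕ) < m
      · simp only [p', q', r', g, dif_pos h]
      · by_cases h2 : (i : ℕ) = m
        · simp only [p', q', r', g, dif_neg h, if_pos h2]
          exact area_filler A hA0
        · simp only [p', q', r', g, dif_neg h, if_neg h2]
          exact area_zero_triangle
    rw [Finset.sum_congr rfl (fun i _ => hF i), Fin.sum_univ_eq_sum_range g n,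
      ← Finset.sum_range_add_sum_Ico g hn, Finset.sum_range_succ,
      ← Fin.sum_univ_eq_sum_range g m]
    have h1 : ∀ i : Fin m, g i = (μHE[2] (convexHull ℝ ({p i, q i, r i} : Set E3))).toReal := by
      intro i
      simp only [g, dif_pos i.2]
    have h2 : g m = A := by
      simp only [g, dif_neg (lt_irrefl m), if_pos]
    have h3 : ∑ j ∈ Finset.Ico (m + 1) n, g j = 0 := by
      apply Finset.sum_eq_zero
      intro j hj
      have hj1 : m + 1 ≤ j := (Finset.mem_Ico.mp hj).1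
      have hjm : ¬ j < m := by omega
      have hjm' : j ≠ m := by omega
      simp only [g, dif_neg hjm, if_neg hjm']
    rw [Finset.sum_congr rfl (fun i _ => h1 i), h2, h3, hA]
    ring

/-- **S0325, part 2**, from a good cover. -/
theorem s0325_part2_of (hcov : GoodCover) :
    ∀ ε : ℝ, 0 < ε → ε ≤ 1 / 2000 →
      ∃ (u p q r : Fin (2 * ⌈2 / ε ^ 2⌉₊) → E3),
        (∀ i, ‖u i‖ = 1) ∧
        (∀ i, inner ℝ (p i) (u i) = 0 ∧ inner ℝ (q i) (u i) = 0 ∧ inner ℝ (r i) (u i) = 0) ∧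
        K0 ⊆ ⋃ i, {x : E3 | ∃ b ∈ convexHull ℝ {p i, q i, r i}, ∃ t : ℝ, x = b + t • u i} ∧
        abs ((∑ i, (μHE[2] (convexHull ℝ ({p i, q i, r i} : Set E3))).toReal) / Real.sqrt 2 -
            (1 / 2 - 13 / 6000 * ε ^ 2)) ≤ 2 * ε ^ 4 := by
  intro ε hε hε2
  obtain ⟨m, u, p, q, r, hm, hu, hperp, -, hcover, hsum⟩ := hcov
  have h2 : 0 < Real.sqrt 2 := Real.sqrt_pos.mpr (by norm_num)
  -- the count
  have hn : m + 1 ≤ 2 * ⌈2 / ε ^ 2⌉₊ := by
    have h1 : (8000000 : ℝ) ≤ 2 / ε ^ 2 := by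
      rw [le_div_iff₀ (by positivity)]
      have : ε ^ 2 ≤ (1 / 2000) ^ 2 := pow_le_pow_left₀ hε.le hε2 2
      nlinarith
    have h3 : (8000000 : ℝ) ≤ (⌈2 / ε ^ 2⌉₊ : ℝ) := h1.trans (Nat.le_ceil _)
    have h4 : 8000000 ≤ ⌈2 / ε ^ 2⌉₊ := by exact_mod_cast h3
    omega
  -- the total area
  have hT : ∑ i, (μHE[2] (convexHull ℝ ({p i, q i, r i} : Set E3))).toReal
      ≤ Real.sqrt 2 * (1 / 2 - 13 / 6000 * ε ^ 2) := by
    rw [Finset.sum_congr rfl (fun i _ => area_triangle_toReal (p i) (q i) (r i))]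
    refine hsum.trans ?_
    apply mul_le_mul_of_nonneg_left _ h2.le
    have : ε ^ 2 ≤ (1 / 2000) ^ 2 := pow_le_pow_left₀ hε.le hε2 2
    nlinarith
  obtain ⟨u', p', q', r', hu', hperp', hcover', hsum'⟩ :=
    pad_cover K0 u p q r hu hperp hcover _ hn _ hT
  refine ⟨u', p', q', r', hu', hperp', hcover', ?_⟩
  rw [hsum', mul_div_cancel_left₀ _ h2.ne', sub_self, abs_zero]
  positivity

/-- **S0324** from a good cover and the projection bound. -/
theorem s0324_of (hcov : GoodCover)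
    (hge : ∀ v : E3, ‖v‖ = 1 →
      ENNReal.ofReal (Real.sqrt 2) ≤ μHE[2] ((fun y => y - inner ℝ y v • v) '' K0))
    (hlt : ∀ v : E3, ‖v‖ = 1 → μHE[2] ((fun y => y - inner ℝ y v • v) '' K0) < ⊤) :
    ∃ (m : ℕ) (u p q r : Fin m → E3),
      (∀ i, ‖u i‖ = 1) ∧
      (∀ i, inner ℝ (p i) (u i) = 0 ∧ inner ℝ (q i) (u i) = 0 ∧ inner ℝ (r i) (u i) = 0) ∧
      K0 ⊆ ⋃ i, {x : E3 | ∃ b ∈ convexHull ℝ {p i, q i, r i}, ∃ t : ℝ, x = b + t • u i} ∧
      ∃ δ : ℝ, 0 < δ ∧ ∀ v : E3, ‖v‖ = 1 →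
        ∑ i, (μH[(2 : ℝ)] (convexHull ℝ {p i, q i, r i})).toReal + δ ≤
          (μH[(2 : ℝ)] ((fun y => y - inner ℝ y v • v) '' K0)).toReal / 2 := by
  obtain ⟨m, u, p, q, r, hm, hu, hperp, -, hcover, hsum⟩ := hcov
  obtain ⟨k, hk, hH⟩ := exists_hausdorff_eq_mul
  have h2 : 0 < Real.sqrt 2 := Real.sqrt_pos.mpr (by norm_num)
  refine ⟨m, u, p, q, r, hu, hperp, hcover, k * (Real.sqrt 2 * (6 / 10 ^ 10)), by positivity, ?_⟩
  intro v hv
  have hreal : ∀ s : Set E3, (μH[(2 : ℝ)] s).toReal = k * (μHE[2] s).toReal := by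
    intro s
    rw [hH s, ENNReal.toReal_mul, ENNReal.toReal_ofReal hk.le]
  have hproj : Real.sqrt 2 ≤ (μHE[2] ((fun y => y - inner ℝ y v • v) '' K0)).toReal := by
    have := ENNReal.toReal_mono (hlt v hv).ne (hge v hv)
    rwa [ENNReal.toReal_ofReal h2.le] at this
  rw [hreal, Finset.sum_congr rfl (fun i _ => hreal _), ← Finset.mul_sum,
    Finset.sum_congr rfl (fun i _ => area_triangle_toReal (p i) (q i) (r i))]
  have h3 : k * ∑ i, Real.sqrt (gram (q i - p i) (r i - p i)) / 2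
      ≤ k * (Real.sqrt 2 * (1 / 2 - 6 / 10 ^ 10)) := mul_le_mul_of_nonneg_left hsum hk.le
  have h4 : k * Real.sqrt 2 ≤ k * (μHE[2] ((fun y => y - inner ℝ y v • v) '' K0)).toReal :=
    mul_le_mul_of_nonneg_left hproj hk.le
  nlinarith

end Crest.Agent.Helper4.R211
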