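import Mathlib
import Crest.Agent.Helper9.Area
import Crest.Agent.Helper9.Proj

/-!
# Row 211: projections commute with similarities (helper4)
-/

set_option autoImplicit false
open MeasureTheory
open scoped ENNReal Pointwise
open Crest.Agent.Helper9.Area

namespace Crest.Agent.Helper4.R211

/-- `μHE[2]` of the image of a set under the similarity `z ↦ d + lam • A z`. -/
theorem area_image_similarity (A : E3 ≃ₗᵢ[ℝ] E3) (lam : ℝ) (hlam : 0 < lam) (d : E3) (T : Set E3) :
    μHE[2] ((fun z => d + lam • A z) '' T) = ENNReal.ofReal (lam ^ 2) * μHE[2] T := by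
  have e : (fun z => d + lam • A z) '' T = (fun y => d + y) '' (lam • (A '' T)) := by
    ext x
    simp only [Set.mem_image, Set.mem_smul_set]
    constructor
    · rintro ⟨z, hz, rfl⟩
      exact ⟨lam • A z, ⟨A z, ⟨z, hz, rfl⟩, rfl⟩, rfl⟩
    · rintro ⟨y, ⟨y', ⟨z, hz, rfl⟩, rfl⟩, rfl⟩
      exact ⟨z, hz, rfl⟩
  rw [e, (isometry_add_left d).euclideanHausdorffMeasure_image,
    Measure.euclideanHausdorffMeasure_smul₀ 2 hlam.ne', A.isometry.euclideanHausdorffMeasure_image]
  have : ENNReal.ofReal (lam ^ 2) = ((‖lam‖₊ ^ 2 : NNReal) : ℝ≥0∞) := by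
    rw [ENNReal.ofReal_pow hlam.le, ENNReal.coe_pow]
    congr 1
    rw [← enorm_eq_nnnorm, Real.enorm_of_nonneg hlam.le]
  rw [this]
  rfl

/-- Projections commute with similarities (G5). -/
theorem proj_image_similarity (A : E3 ≃ₗᵢ[ℝ] E3) (lam : ℝ) (hlam : 0 < lam) (c₀ v : E3)
    (S : Set E3) :
    μHE[2] ((fun y => y - inner ℝ y v • v) '' ((fun x => c₀ + lam • A x) '' S)) =
      ENNReal.ofReal (lam ^ 2) * μHE[2] ((fun y => y - inner ℝ y (A.symm v) • A.symm v) '' S) := by
  have e : (fun y => y - inner ℝ y v • v) '' ((fun x => c₀ + lam • A x) '' S)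
      = (fun z => (c₀ - inner ℝ c₀ v • v) + lam • A z) ''
        ((fun y => y - inner ℝ y (A.symm v) • A.symm v) '' S) := by
    rw [Set.image_image, Set.image_image]
    apply Set.image_congr
    intro x _
    have h1 : inner ℝ (A x) v = inner ℝ x (A.symm v) := by
      rw [← LinearIsometryEquiv.inner_map_map A x (A.symm v), LinearIsometryEquiv.apply_symm_apply]
    simp only [map_sub, map_smul, LinearIsometryEquiv.apply_symm_apply, inner_add_left,
      inner_smul_left, conj_trivial, h1]
    module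
  rw [e, area_image_similarity A lam hlam]

end Crest.Agent.Helper4.R211
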