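import Mathlib
import Crest.Agent.Helper9.Area
import Crest.Agent.Helper9.Proj
import Crest.Agent.Helper4.R211Open
import Crest.Agent.Helper4.R211Pad

/-!
# Row 211: assembly of S0327 (helper4)

From one good cover of the standard tetrahedron by triangle cylinders (`GoodCover`), the
projection bounds for the standard tetrahedron, the strips lemma, and the similarity lemmas we get
S0327 for every regular tetrahedron.
-/

set_option autoImplicit false
open MeasureTheory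
open scoped ENNReal
open Crest.Agent.Helper9.Area

namespace Crest.Agent.Helper4.R211

/-- the parallelogram `c + [0,1] a + [0,1] b` -/
def pg (c a b : E3) : Set E3 :=
  {x : E3 | ∃ s ∈ Set.Icc (0 : ℝ) 1, ∃ t ∈ Set.Icc (0 : ℝ) 1, x = c + s • a + t • b}

/-- the cylinder over the parallelogram `c + [0,1] a + [0,1] b` in direction `u` -/
def pgCyl (u c a b : E3) : Set E3 :=
  {x : E3 | ∃ s ∈ Set.Icc (0 : ℝ) 1, ∃ t ∈ Set.Icc (0 : ℝ) 1, ∃ τ : ℝ,
    x = c + s • a + t • b + τ • u}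

/-- A cover of `K` by finitely many cylinders over nondegenerate parallelograms orthogonal to
their unit directions, of total base area at most `S`. -/
def PgCover (K : Set E3) (S : ℝ) : Prop :=
  ∃ (k : ℕ) (u c a b : Fin k → E3), (∀ i, ‖u i‖ = 1) ∧
    (∀ i, inner ℝ (c i) (u i) = 0 ∧ inner ℝ (a i) (u i) = 0 ∧ inner ℝ (b i) (u i) = 0) ∧
    (∀ i, 0 < gram (a i) (b i)) ∧
    K ⊆ ⋃ i, pgCyl (u i) (c i) (a i) (b i) ∧
    ∑ i, Real.sqrt (gram (a i) (b i)) ≤ S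

/-- reindexing: a cover indexed by a finite type gives a `PgCover` -/
theorem PgCover.of_fintype {ι : Type} [Fintype ι] (K : Set E3) (S : ℝ) (u c a b : ι → E3)
    (hu : ∀ i, ‖u i‖ = 1)
    (hperp : ∀ i, inner ℝ (c i) (u i) = 0 ∧ inner ℝ (a i) (u i) = 0 ∧ inner ℝ (b i) (u i) = 0)
    (hpos : ∀ i, 0 < gram (a i) (b i))
    (hcov : K ⊆ ⋃ i, pgCyl (u i) (c i) (a i) (b i))
    (hsum : ∑ i, Real.sqrt (gram (a i) (b i)) ≤ S) : PgCover K S := by
  let e := Fintype.equivFin ι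
  refine ⟨Fintype.card ι, u ∘ e.symm, c ∘ e.symm, a ∘ e.symm, b ∘ e.symm, fun i => hu _,
    fun i => hperp _, fun i => hpos _, ?_, ?_⟩
  · intro x hx
    obtain ⟨i, hi⟩ := Set.mem_iUnion.mp (hcov hx)
    refine Set.mem_iUnion.mpr ⟨e i, ?_⟩
    simpa using hi
  · have : ∑ j, Real.sqrt (gram ((a ∘ e.symm) j) ((b ∘ e.symm) j))
        = ∑ i, Real.sqrt (gram (a i) (b i)) :=
      Equiv.sum_comp e.symm (fun i => Real.sqrt (gram (a i) (b i)))
    rw [this]
    exact hsum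

/-- the statement of the strips lemma -/
def StripsStmt : Prop :=
  ∀ (u p q r : E3), inner ℝ p u = 0 → inner ℝ q u = 0 → inner ℝ r u = 0 →
    0 < gram (q - p) (r - p) → ∀ n : ℕ, 0 < n →
    ∃ (k : ℕ) (c a b : Fin k → E3),
      (∀ j, inner ℝ (c j) u = 0 ∧ inner ℝ (a j) u = 0 ∧ inner ℝ (b j) u = 0) ∧
      (∀ j, 0 < gram (a j) (b j)) ∧
      convexHull ℝ ({p, q, r} : Set E3) ⊆ ⋃ j, {x : E3 | ∃ s ∈ Set.Icc (0 : ℝ) 1,
        ∃ t ∈ Set.Icc (0 : ℝ) 1, x = c j + s • a j + t • b j} ∧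
      ∑ j, Real.sqrt (gram (a j) (b j)) = (1 + 1 / (n : ℝ)) * (Real.sqrt (gram (q - p) (r - p)) / 2)

/-- the statement of the similarity lemma -/
def SimilarityStmt : Prop :=
  ∀ (w : Fin 4 → E3) (ℓ : ℝ), 0 < ℓ → (∀ i j, i ≠ j → dist (w i) (w j) = ℓ) →
    ∃ (A : E3 ≃ₗᵢ[ℝ] E3) (c₀ : E3),
      (fun x => c₀ + (ℓ / 2) • A x) '' K0 = convexHull ℝ (Set.range w)

/-- the statement of the projection-under-similarity lemma -/
def ProjSimStmt : Prop :=
  ∀ (A : E3 ≃ₗᵢ[ℝ] E3) (lam : ℝ), 0 < lam → ∀ (c₀ v : E3) (S : Set E3),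
    μHE[2] ((fun y => y - inner ℝ y v • v) '' ((fun x => c₀ + lam • A x) '' S)) =
      ENNReal.ofReal (lam ^ 2) * μHE[2] ((fun y => y - inner ℝ y (A.symm v) • A.symm v) '' S)

/-- Step 1: triangles to parallelograms. -/
theorem pgCover_of_goodCover (hstrips : StripsStmt) (hcov : GoodCover) :
    PgCover K0 (Real.sqrt 2 * (1 / 2 - 5 / 10 ^ 10)) := by
  obtain ⟨m, u, p, q, r, -, hu, hperp, hpos, hcover, hsum⟩ := hcov
  have h2 : 0 < Real.sqrt 2 := Real.sqrt_pos.mpr (by norm_num)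
  set N : ℕ := 10 ^ 10 with hN
  have hN0 : 0 < N := by rw [hN]; positivity
  have hstr := fun i => hstrips (u i) (p i) (q i) (r i) (hperp i).1 (hperp i).2.1 (hperp i).2.2
    (hpos i) N hN0
  choose kk c a b hperp' hpos' hcover' hsum' using hstr
  refine PgCover.of_fintype (ι := Σ i : Fin m, Fin (kk i)) K0 _ (fun ij => u ij.1)
    (fun ij => c ij.1 ij.2)
    (fun ij => a ij.1 ij.2) (fun ij => b ij.1 ij.2) (fun ij => hu _) (fun ij => hperp' _ _)
    (fun ij => hpos' _ _) ?_ ?_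
  · intro x hx
    obtain ⟨i, hi⟩ := Set.mem_iUnion.mp (hcover hx)
    obtain ⟨y, hy, t, rfl⟩ := hi
    obtain ⟨j, hj⟩ := Set.mem_iUnion.mp (hcover' i hy)
    obtain ⟨s, hs, t', ht', rfl⟩ := hj
    exact Set.mem_iUnion.mpr ⟨⟨i, j⟩, s, hs, t', ht', t, rfl⟩
  · rw [Fintype.sum_sigma]
    simp only
    rw [Finset.sum_congr rfl (fun i _ => hsum' i), ← Finset.mul_sum]
    have hNr : (N : ℝ) = 10 ^ 10 := by rw [hN]; norm_num
    rw [hNr]
    have h3 : (1 + 1 / (10 : ℝ) ^ 10) * ∑ i, Real.sqrt (gram (q i - p i) (r i - p i)) / 2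
        ≤ (1 + 1 / (10 : ℝ) ^ 10) * (Real.sqrt 2 * (1 / 2 - 6 / 10 ^ 10)) :=
      mul_le_mul_of_nonneg_left hsum (by positivity)
    refine h3.trans ?_
    have : (1 + 1 / (10 : ℝ) ^ 10) * (1 / 2 - 6 / 10 ^ 10) ≤ 1 / 2 - 5 / 10 ^ 10 := by norm_num
    calc (1 + 1 / (10 : ℝ) ^ 10) * (Real.sqrt 2 * (1 / 2 - 6 / 10 ^ 10))
        = Real.sqrt 2 * ((1 + 1 / (10 : ℝ) ^ 10) * (1 / 2 - 6 / 10 ^ 10)) := by ring
      _ ≤ Real.sqrt 2 * (1 / 2 - 5 / 10 ^ 10) := mul_le_mul_of_nonneg_left this h2.le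

/-- Step 2: transport under a similarity. -/
theorem PgCover.map (K : Set E3) (S : ℝ) (h : PgCover K S) (A : E3 ≃ₗᵢ[ℝ] E3) (lam : ℝ)
    (hlam : 0 < lam) (c₀ : E3) :
    PgCover ((fun x => c₀ + lam • A x) '' K) (lam ^ 2 * S) := by
  obtain ⟨k, u, c, a, b, hu, hperp, hpos, hcov, hsum⟩ := h
  have hAu : ∀ i, ‖A (u i)‖ = 1 := fun i => by rw [LinearIsometryEquiv.norm_map]; exact hu i
  have hgram : ∀ i, gram (lam • A (a i)) (lam • A (b i)) = (lam ^ 2) ^ 2 * gram (a i) (b i) := by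
    intro i
    rw [gram_smul_left, gram_smul_right]
    unfold gram
    rw [LinearIsometryEquiv.norm_map, LinearIsometryEquiv.norm_map,
      LinearIsometryEquiv.inner_map_map]
    ring
  refine ⟨k, fun i => A (u i),
    fun i => lam • A (c i) + (c₀ - inner ℝ c₀ (A (u i)) • A (u i)),
    fun i => lam • A (a i), fun i => lam • A (b i), hAu, ?_, ?_, ?_, ?_⟩
  · intro i
    refine ⟨?_, ?_, ?_⟩
    · rw [inner_add_left, inner_smul_left, LinearIsometryEquiv.inner_map_map, (hperp i).1,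
        inner_sub_left, inner_smul_left, real_inner_self_eq_norm_sq, hAu i]
      simp
    · rw [inner_smul_left, LinearIsometryEquiv.inner_map_map, (hperp i).2.1]
      simp
    · rw [inner_smul_left, LinearIsometryEquiv.inner_map_map, (hperp i).2.2]
      simp
  · intro i
    rw [hgram i]
    have := hpos i
    positivity
  · rintro _ ⟨x, hx, rfl⟩
    obtain ⟨i, hi⟩ := Set.mem_iUnion.mp (hcov hx)
    obtain ⟨s, hs, t, ht, τ, rfl⟩ := hi
    refine Set.mem_iUnion.mpr ⟨i, s, hs, t, ht, lam * τ + inner ℝ c₀ (A (u i)), ?_⟩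
    simp only [map_add, map_smul]
    module
  · have : ∀ i, Real.sqrt (gram (lam • A (a i)) (lam • A (b i)))
        = lam ^ 2 * Real.sqrt (gram (a i) (b i)) := by
      intro i
      rw [hgram i, Real.sqrt_mul (by positivity), Real.sqrt_sq (by positivity)]
    rw [Finset.sum_congr rfl (fun i _ => this i), ← Finset.mul_sum]
    exact mul_le_mul_of_nonneg_left hsum (by positivity)

/-- The final bookkeeping: from a bound on the total area to the two area clauses. -/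
theorem area_clauses (K : Set E3) (M : ℝ) (hM : 0 < M)
    (hproj : ∀ v : E3, ‖v‖ = 1 →
      M ≤ (μHE[2] ((fun y => y - inner ℝ y v • v) '' K)).toReal)
    {k : ℕ} (u : Fin k → E3) (hu : ∀ i, ‖u i‖ = 1) (area : Fin k → ℝ) (h0 : ∀ i, 0 ≤ area i)
    (κ : ℝ) (hκ : 0 < κ) (hsum : ∑ i, area i ≤ M * (1 / 2 - κ)) :
    (∃ δ : ℝ, 0 < δ ∧ ∀ v : E3, ‖v‖ = 1 →
      (∑ i, area i) + δ ≤ (μHE[2] ((fun y => y - inner ℝ y v • v) '' K)).toReal / 2) ∧
    ∑ i, area i / (μHE[2] ((fun y => y - inner ℝ y (u i) • u i) '' K)).toReal < 1 / 2 := by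
  refine ⟨⟨M * κ, by positivity, fun v hv => ?_⟩, ?_⟩
  · have := hproj v hv
    nlinarith
  · have h1 : ∀ i, area i / (μHE[2] ((fun y => y - inner ℝ y (u i) • u i) '' K)).toReal
        ≤ area i / M := fun i =>
      div_le_div_of_nonneg_left (h0 i) hM (hproj (u i) (hu i))
    calc ∑ i, area i / (μHE[2] ((fun y => y - inner ℝ y (u i) • u i) '' K)).toReal
        ≤ ∑ i, area i / M := Finset.sum_le_sum (fun i _ => h1 i)
      _ = (∑ i, area i) / M := by rw [Finset.sum_div]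
      _ ≤ M * (1 / 2 - κ) / M := div_le_div_of_nonneg_right hsum hM.le
      _ = 1 / 2 - κ := by field_simp
      _ < 1 / 2 := by linarith

/-- **S0327** from the packages. -/
theorem s0327_of (hcov : GoodCover) (hstrips : StripsStmt) (hsim : SimilarityStmt)
    (hprojsim : ProjSimStmt)
    (hge : ∀ v : E3, ‖v‖ = 1 →
      ENNReal.ofReal (Real.sqrt 2) ≤ μHE[2] ((fun y => y - inner ℝ y v • v) '' K0))
    (hlt : ∀ v : E3, ‖v‖ = 1 → μHE[2] ((fun y => y - inner ℝ y v • v) '' K0) < ⊤)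
    (w : Fin 4 → E3) (ℓ : ℝ) (hℓ : 0 < ℓ) (hw : ∀ i j, i ≠ j → dist (w i) (w j) = ℓ) :
    (∃ (k : ℕ) (u c a b : Fin k → E3),
      (∀ i, ‖u i‖ = 1) ∧
      (∀ i, inner ℝ (c i) (u i) = 0 ∧ inner ℝ (a i) (u i) = 0 ∧ inner ℝ (b i) (u i) = 0) ∧
      convexHull ℝ (Set.range w) ⊆ ⋃ i, {x : E3 |
        ∃ s ∈ Set.Icc (0 : ℝ) 1, ∃ t ∈ Set.Icc (0 : ℝ) 1, ∃ τ : ℝ,
          x = c i + s • a i + t • b i + τ • u i} ∧
      (∃ δ : ℝ, 0 < δ ∧ ∀ v : E3, ‖v‖ = 1 →
        (∑ i, (μHE[2] {x : E3 |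
            ∃ s ∈ Set.Icc (0 : ℝ) 1, ∃ t ∈ Set.Icc (0 : ℝ) 1, x = c i + s • a i + t • b i}).toReal)
            + δ ≤
          (μHE[2] ((fun y => y - inner ℝ y v • v) '' convexHull ℝ (Set.range w))).toReal / 2) ∧
      ∑ i, (μHE[2] {x : E3 |
            ∃ s ∈ Set.Icc (0 : ℝ) 1, ∃ t ∈ Set.Icc (0 : ℝ) 1, x = c i + s • a i + t • b i}).toReal /
          (μHE[2] ((fun y => y - inner ℝ y (u i) • u i) '' convexHull ℝ (Set.range w))).toReal
        < 1 / 2) ∧
    (∃ (k : ℕ) (u : Fin k → E3) (B : Fin k → Set E3),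
      (∀ i, ‖u i‖ = 1) ∧
      (∀ i, Bornology.IsBounded (B i) ∧ ∃ O : Set E3, IsOpen O ∧
        B i = O ∩ {x | inner ℝ x (u i) = 0}) ∧
      convexHull ℝ (Set.range w) ⊆
        ⋃ i, {x : E3 | ∃ y ∈ B i, ∃ τ : ℝ, x = y + τ • u i} ∧
      (∃ δ : ℝ, 0 < δ ∧ ∀ v : E3, ‖v‖ = 1 →
        (∑ i, (μHE[2] (B i)).toReal) + δ ≤
          (μHE[2] ((fun y => y - inner ℝ y v • v) '' convexHull ℝ (Set.range w))).toReal / 2) ∧
      ∑ i, (μHE[2] (B i)).toReal /
          (μHE[2] ((fun y => y - inner ℝ y (u i) • u i) '' convexHull ℝ (Set.range w))).toReal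
        < 1 / 2) := by
  have h2 : 0 < Real.sqrt 2 := Real.sqrt_pos.mpr (by norm_num)
  obtain ⟨A, c₀, hK⟩ := hsim w ℓ hℓ hw
  set lam : ℝ := ℓ / 2 with hlam
  have hlam0 : 0 < lam := by rw [hlam]; positivity
  set M : ℝ := lam ^ 2 * Real.sqrt 2 with hMdef
  have hM : 0 < M := by rw [hMdef]; positivity
  -- projections of the general tetrahedron
  have hproj : ∀ v : E3, ‖v‖ = 1 →
      M ≤ (μHE[2] ((fun y => y - inner ℝ y v • v) '' convexHull ℝ (Set.range w))).toReal := by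
    intro v hv
    have hv' : ‖A.symm v‖ = 1 := by rw [LinearIsometryEquiv.norm_map]; exact hv
    rw [← hK, hprojsim A lam hlam0 c₀ v K0, ENNReal.toReal_mul,
      ENNReal.toReal_ofReal (by positivity)]
    have := ENNReal.toReal_mono (hlt _ hv').ne (hge _ hv')
    rw [ENNReal.toReal_ofReal h2.le] at this
    rw [hMdef]
    exact mul_le_mul_of_nonneg_left this (by positivity)
  -- the parallelogram cover of the general tetrahedron
  have hpg := (pgCover_of_goodCover hstrips hcov).map K0 _ A lam hlam0 c₀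
  rw [hK] at hpg
  obtain ⟨k, u, c, a, b, hu, hperp, hpos, hcover, hsum⟩ := hpg
  have hsum' : ∑ i, Real.sqrt (gram (a i) (b i)) ≤ M * (1 / 2 - 5 / 10 ^ 10) := by
    rw [hMdef]
    calc ∑ i, Real.sqrt (gram (a i) (b i)) ≤ lam ^ 2 * (Real.sqrt 2 * (1 / 2 - 5 / 10 ^ 10)) := hsum
      _ = lam ^ 2 * Real.sqrt 2 * (1 / 2 - 5 / 10 ^ 10) := by ring
  constructor
  · -- part 1
    obtain ⟨hδ, hratio⟩ := area_clauses (convexHull ℝ (Set.range w)) M hM hproj u hu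
      (fun i => Real.sqrt (gram (a i) (b i))) (fun i => Real.sqrt_nonneg _) (5 / 10 ^ 10)
      (by norm_num) hsum'
    refine ⟨k, u, c, a, b, hu, hperp, hcover, ?_, ?_⟩
    · simpa only [area_parallelogram_toReal] using hδ
    · simpa only [area_parallelogram_toReal] using hratio
  · -- part 2
    have hη : (0 : ℝ) < 1 / 10 ^ 10 := by norm_num
    have hopen := fun i => open_pgram_base (u i) (c i) (a i) (b i) (hu i) (hperp i).1
      (hperp i).2.1 (hperp i).2.2 (hpos i) (1 / 10 ^ 10) hη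
    choose B hBbdd hBopen hBsub hBarea using hopen
    have harea : ∀ i, (μHE[2] (B i)).toReal ≤ (1 + 1 / 10 ^ 10) * Real.sqrt (gram (a i) (b i)) :=
      fun i => ENNReal.toReal_le_of_le_ofReal (by positivity) (hBarea i)
    have hsumB : ∑ i, (μHE[2] (B i)).toReal ≤ M * (1 / 2 - 4 / 10 ^ 10) := by
      calc ∑ i, (μHE[2] (B i)).toReal
          ≤ ∑ i, (1 + 1 / 10 ^ 10) * Real.sqrt (gram (a i) (b i)) :=
            Finset.sum_le_sum (fun i _ => harea i)
        _ = (1 + 1 / 10 ^ 10) * ∑ i, Real.sqrt (gram (a i) (b i)) := by rw [Finset.mul_sum]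
        _ ≤ (1 + 1 / 10 ^ 10) * (M * (1 / 2 - 5 / 10 ^ 10)) :=
            mul_le_mul_of_nonneg_left hsum' (by positivity)
        _ = M * ((1 + 1 / 10 ^ 10) * (1 / 2 - 5 / 10 ^ 10)) := by ring
        _ ≤ M * (1 / 2 - 4 / 10 ^ 10) := mul_le_mul_of_nonneg_left (by norm_num) hM.le
    obtain ⟨hδ, hratio⟩ := area_clauses (convexHull ℝ (Set.range w)) M hM hproj u hu
      (fun i => (μHE[2] (B i)).toReal) (fun i => ENNReal.toReal_nonneg) (4 / 10 ^ 10)
      (by norm_num) hsumB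
    refine ⟨k, u, B, hu, fun i => ⟨hBbdd i, hBopen i⟩, ?_, hδ, hratio⟩
    intro x hx
    obtain ⟨i, hi⟩ := Set.mem_iUnion.mp (hcover hx)
    obtain ⟨s, hs, t, ht, τ, rfl⟩ := hi
    exact Set.mem_iUnion.mpr ⟨i, c i + s • a i + t • b i, hBsub i ⟨s, hs, t, ht, rfl⟩, τ, rfl⟩

end Crest.Agent.Helper4.R211
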