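import Mathlib
import Crest.Prelude.Def_TruncExpWeight
import Crest.Agent.Helper4.ExpLaw

/-!
# Basic facts on `truncExpWeight` and moments of the exponential law (helper4)
-/

set_option autoImplicit false

open MeasureTheory Real Set
open scoped ENNReal

namespace Crest.Agent.Helper4

open Crest.AlgGeometry

/-- Closed form without case split. -/
lemma truncExpWeight_eq (y : ℝ) :
    truncExpWeight y = (1 + max y 0) * Real.exp (-(max y 0)) := by
  unfold truncExpWeight
  split_ifs with h
  · rw [max_eq_right h]; simp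
  · rw [max_eq_left (not_le.mp h).le]

lemma truncExpWeight_of_nonpos {y : ℝ} (h : y ≤ 0) : truncExpWeight y = 1 := by
  unfold truncExpWeight; rw [if_pos h]

lemma truncExpWeight_of_pos {y : ℝ} (h : 0 < y) :
    truncExpWeight y = (1 + y) * Real.exp (-y) := by
  unfold truncExpWeight; rw [if_neg (not_le.mpr h)]

lemma continuous_truncExpWeight : Continuous truncExpWeight := by
  have : truncExpWeight = fun y : ℝ => (1 + max y 0) * Real.exp (-(max y 0)) :=
    funext truncExpWeight_eq
  rw [this]
  fun_prop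

lemma measurable_truncExpWeight : Measurable truncExpWeight :=
  continuous_truncExpWeight.measurable

lemma truncExpWeight_pos (y : ℝ) : 0 < truncExpWeight y := by
  rw [truncExpWeight_eq]
  have : 0 ≤ max y 0 := le_max_right _ _
  positivity

lemma truncExpWeight_nonneg (y : ℝ) : 0 ≤ truncExpWeight y := (truncExpWeight_pos y).le

lemma truncExpWeight_le_one (y : ℝ) : truncExpWeight y ≤ 1 := by
  rw [truncExpWeight_eq]
  have h1 : 1 + max y 0 ≤ Real.exp (max y 0) := by
    have := Real.add_one_le_exp (max y 0); linarith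
  rw [Real.exp_neg, ← div_eq_mul_inv, div_le_one (Real.exp_pos _)]
  exact h1

/-- `u ↦ (1 + u) e^{-u}` is 1-Lipschitz on `[0, ∞)`. -/
lemma abs_one_add_mul_exp_neg_sub_le {u v : ℝ} (hu : 0 ≤ u) (hv : 0 ≤ v) :
    |(1 + v) * Real.exp (-v) - (1 + u) * Real.exp (-u)| ≤ |v - u| := by
  have hderiv : ∀ x ∈ Ici (0 : ℝ),
      HasDerivWithinAt (fun t : ℝ => (1 + t) * Real.exp (-t)) (-(x * Real.exp (-x))) (Ici 0) x := by
    intro x _
    have h1 : HasDerivAt (fun t : ℝ => (1 + t)) 1 x := by
      simpa using (hasDerivAt_id x).const_add (1 : ℝ)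
    have h2 : HasDerivAt (fun t : ℝ => Real.exp (-t)) (Real.exp (-x) * (-1)) x :=
      (Real.hasDerivAt_exp (-x)).comp x (hasDerivAt_neg x)
    have h3 := h1.mul h2
    have : 1 * Real.exp (-x) + (1 + x) * (Real.exp (-x) * -1) = -(x * Real.exp (-x)) := by ring
    rw [this] at h3
    exact h3.hasDerivWithinAt
  have hbound : ∀ x ∈ Ici (0 : ℝ), ‖-(x * Real.exp (-x))‖ ≤ 1 := by
    intro x hx
    have hx0 : (0 : ℝ) ≤ x := hx
    rw [norm_neg, Real.norm_eq_abs, abs_of_nonneg (by positivity)]
    have h1 : x ≤ Real.exp x := by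
      have := Real.add_one_le_exp x; linarith
    rw [Real.exp_neg, ← div_eq_mul_inv, div_le_one (Real.exp_pos _)]
    exact h1
  have := Convex.norm_image_sub_le_of_norm_hasDerivWithin_le hderiv hbound (convex_Ici 0)
    (show u ∈ Ici (0 : ℝ) from hu) (show v ∈ Ici (0 : ℝ) from hv)
  simpa [Real.norm_eq_abs] using this

/-- `truncExpWeight` is 1-Lipschitz. -/
lemma abs_truncExpWeight_sub_le (y z : ℝ) :
    |truncExpWeight y - truncExpWeight z| ≤ |y - z| := by
  rw [truncExpWeight_eq, truncExpWeight_eq]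
  exact (abs_one_add_mul_exp_neg_sub_le (le_max_right z 0) (le_max_right y 0)).trans
    (abs_max_sub_max_le_abs y z 0)

lemma truncExpWeight_sub_le (y z : ℝ) :
    truncExpWeight z - |y - z| ≤ truncExpWeight y := by
  have := abs_truncExpWeight_sub_le y z
  have := neg_abs_le (truncExpWeight y - truncExpWeight z)
  linarith

lemma integrableOn_pow_mul_exp_neg (k : ℕ) :
    IntegrableOn (fun t : ℝ => t ^ k * Real.exp (-t)) (Ioi 0) := by
  have h := Real.GammaIntegral_convergent (s := (k : ℝ) + 1) (by positivity)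
  refine (integrableOn_congr_fun (fun t ht => ?_) measurableSet_Ioi).mp h
  simp only [add_sub_cancel_right, Real.rpow_natCast]
  ring

lemma integral_pow_mul_exp_neg (k : ℕ) :
    ∫ t in Ioi (0 : ℝ), t ^ k * Real.exp (-t) = (k.factorial : ℝ) := by
  rw [← Real.Gamma_nat_eq_factorial, Real.Gamma_eq_integral (by positivity)]
  refine setIntegral_congr_fun measurableSet_Ioi (fun t ht => ?_)
  simp only [add_sub_cancel_right, Real.rpow_natCast]
  ring

lemma integrable_expLaw_iff {f : ℝ → ℝ} :
    Integrable f expLaw ↔ IntegrableOn (fun t => f t * Real.exp (-t)) (Ioi 0) := by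
  unfold expLaw
  rw [integrable_withDensity_iff_integrable_smul' measurable_expDensity
    (Filter.Eventually.of_forall fun x => ENNReal.ofReal_lt_top)]
  refine integrable_congr (Filter.Eventually.of_forall fun x => ?_)
  simp only [smul_eq_mul]
  rw [ENNReal.toReal_ofReal (Real.exp_pos _).le, mul_comm]

lemma integrable_pow_expLaw (k : ℕ) : Integrable (fun t : ℝ => t ^ k) expLaw :=
  integrable_expLaw_iff.mpr (integrableOn_pow_mul_exp_neg k)

lemma integral_pow_expLaw (k : ℕ) : ∫ t, t ^ k ∂expLaw = (k.factorial : ℝ) := by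
  rw [integral_expLaw, integral_pow_mul_exp_neg]

lemma integrable_id_expLaw : Integrable (fun t : ℝ => t) expLaw := by
  simpa using integrable_pow_expLaw 1

lemma integral_id_expLaw : ∫ t, t ∂expLaw = 1 := by
  simpa using integral_pow_expLaw 1

lemma integrable_sub_one_expLaw : Integrable (fun t : ℝ => t - 1) expLaw :=
  integrable_id_expLaw.sub (integrable_const 1)

lemma integral_sub_one_expLaw : ∫ t, (t - 1) ∂expLaw = 0 := by
  rw [integral_sub integrable_id_expLaw (integrable_const 1), integral_id_expLaw]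
  simp

lemma integrable_sub_one_sq_expLaw : Integrable (fun t : ℝ => (t - 1) ^ 2) expLaw := by
  have h : (fun t : ℝ => (t - 1) ^ 2) = fun t : ℝ => t ^ 2 - 2 * t + 1 := by
    funext t; ring
  rw [h]
  exact ((integrable_pow_expLaw 2).sub (integrable_id_expLaw.const_mul 2)).add (integrable_const 1)

lemma integral_sub_one_sq_expLaw : ∫ t, (t - 1) ^ 2 ∂expLaw = 1 := by
  have h : (fun t : ℝ => (t - 1) ^ 2) = fun t : ℝ => t ^ 2 - 2 * t + 1 := by
    funext t; ring
  have h2 : Integrable (fun t : ℝ => 2 * t) expLaw := integrable_id_expLaw.const_mul 2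
  have h1 : Integrable (fun t : ℝ => t ^ 2 - 2 * t) expLaw := (integrable_pow_expLaw 2).sub h2
  rw [h, integral_add h1 (integrable_const 1), integral_sub (integrable_pow_expLaw 2) h2,
    integral_const_mul, integral_id_expLaw, integral_pow_expLaw]
  simp

lemma memLp_sub_one_expLaw : MemLp (fun t : ℝ => t - 1) 2 expLaw :=
  (memLp_two_iff_integrable_sq (by fun_prop)).mpr integrable_sub_one_sq_expLaw

/-- Bounded measurable functions are integrable for the exponential law; in particular the weight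
composed with any measurable map. -/
lemma integrable_truncExpWeight_comp {Ω : Type*} [MeasurableSpace Ω] (μ : Measure Ω)
    [IsFiniteMeasure μ] {Y : Ω → ℝ} (hY : Measurable Y) :
    Integrable (fun ω => truncExpWeight (Y ω)) μ := by
  refine Integrable.mono' (integrable_const (1 : ℝ))
    (measurable_truncExpWeight.comp hY).aestronglyMeasurable
    (Filter.Eventually.of_forall fun ω => ?_)
  rw [Real.norm_eq_abs, abs_of_nonneg (truncExpWeight_nonneg _)]
  exact truncExpWeight_le_one _

/-- The one-dimensional extremal value: `E g(-2/3 + 2 X) = 1 - (4/9) e^{-1/3}`. -/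
lemma integral_truncExpWeight_extremal :
    ∫ t, truncExpWeight (-2 / 3 + 2 * t) ∂expLaw = 1 - 4 / 9 * Real.exp (-(1 / 3)) := by
  have hint : IntegrableOn (fun t : ℝ => truncExpWeight (-2 / 3 + 2 * t) * Real.exp (-t)) (Ioi 0) :=
    integrable_expLaw_iff.mp (integrable_truncExpWeight_comp expLaw (by fun_prop))
  have h13 : (0 : ℝ) ≤ 1 / 3 := by norm_num
  rw [integral_expLaw, ← Ioc_union_Ioi_eq_Ioi h13,
    setIntegral_union (Ioc_disjoint_Ioi le_rfl) measurableSet_Ioi
      (hint.mono_set (by rw [← Ioc_union_Ioi_eq_Ioi h13]; exact subset_union_left))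
      (hint.mono_set (by rw [← Ioc_union_Ioi_eq_Ioi h13]; exact subset_union_right))]
  -- first piece
  have hA : ∫ t in Ioc (0 : ℝ) (1 / 3), truncExpWeight (-2 / 3 + 2 * t) * Real.exp (-t)
      = 1 - Real.exp (-(1 / 3)) := by
    have h1 : ∫ t in Ioc (0 : ℝ) (1 / 3), truncExpWeight (-2 / 3 + 2 * t) * Real.exp (-t)
        = ∫ t in Ioc (0 : ℝ) (1 / 3), Real.exp (-t) := by
      refine setIntegral_congr_fun measurableSet_Ioc (fun t ht => ?_)
      have : -2 / 3 + 2 * t ≤ 0 := by have := ht.2; linarith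
      simp only [truncExpWeight_of_nonpos this, one_mul]
    have h2 := setIntegral_union (Ioc_disjoint_Ioi (le_refl (1 / 3 : ℝ))) measurableSet_Ioi
      (integrableOn_exp_neg_Ioi_zero.mono_set
        (by rw [← Ioc_union_Ioi_eq_Ioi h13]; exact subset_union_left))
      (integrableOn_exp_neg_Ioi_zero.mono_set
        (by rw [← Ioc_union_Ioi_eq_Ioi h13]; exact subset_union_right))
    rw [Ioc_union_Ioi_eq_Ioi h13, integral_exp_neg_Ioi_zero, integral_exp_neg_Ioi] at h2
    rw [h1]
    linarith
  -- second piece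
  have hB : ∫ t in Ioi (1 / 3 : ℝ), truncExpWeight (-2 / 3 + 2 * t) * Real.exp (-t)
      = 5 / 9 * Real.exp (-(1 / 3)) := by
    have h1 : ∫ t in Ioi (1 / 3 : ℝ), truncExpWeight (-2 / 3 + 2 * t) * Real.exp (-t)
        = ∫ t in Ioi (1 / 3 : ℝ), (1 / 3 + 2 * t) * Real.exp (2 / 3 - 3 * t) := by
      refine setIntegral_congr_fun measurableSet_Ioi (fun t ht => ?_)
      have ht' : (1 / 3 : ℝ) < t := ht
      have : 0 < -2 / 3 + 2 * t := by linarith
      simp only [truncExpWeight_of_pos this]
      rw [mul_assoc, ← Real.exp_add]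
      congr 1
      · ring
      · congr 1; ring
    have hderiv : ∀ x ∈ Ici (1 / 3 : ℝ),
        HasDerivAt (fun t : ℝ => -((1 / 3 + 2 / 3 * t) * Real.exp (2 / 3 - 3 * t)))
          ((1 / 3 + 2 * x) * Real.exp (2 / 3 - 3 * x)) x := by
      intro x _
      have h1 : HasDerivAt (fun t : ℝ => (1 / 3 + 2 / 3 * t)) (2 / 3) x := by
        simpa using ((hasDerivAt_id x).const_mul (2 / 3 : ℝ)).const_add (1 / 3 : ℝ)
      have h2 : HasDerivAt (fun t : ℝ => 2 / 3 - 3 * t) (-3) x := by
        simpa using ((hasDerivAt_id x).const_mul (3 : ℝ)).const_sub (2 / 3 : ℝ)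
      have h3 : HasDerivAt (fun t : ℝ => Real.exp (2 / 3 - 3 * t))
          (Real.exp (2 / 3 - 3 * x) * (-3)) x :=
        (Real.hasDerivAt_exp _).comp x h2
      have h4 := (h1.mul h3).neg
      have : -(2 / 3 * Real.exp (2 / 3 - 3 * x) + (1 / 3 + 2 / 3 * x) *
          (Real.exp (2 / 3 - 3 * x) * -3)) = (1 / 3 + 2 * x) * Real.exp (2 / 3 - 3 * x) := by ring
      rw [this] at h4
      exact h4
    have hpos : ∀ x ∈ Ioi (1 / 3 : ℝ), 0 ≤ (1 / 3 + 2 * x) * Real.exp (2 / 3 - 3 * x) := by
      intro x hx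
      have hx' : (1 / 3 : ℝ) < x := hx
      have : 0 ≤ 1 / 3 + 2 * x := by linarith
      positivity
    have hlim : Filter.Tendsto (fun t : ℝ => -((1 / 3 + 2 / 3 * t) * Real.exp (2 / 3 - 3 * t)))
        Filter.atTop (nhds 0) := by
      have e0 := tendsto_rpow_mul_exp_neg_mul_atTop_nhds_zero 0 3 (by norm_num)
      have e1 := tendsto_rpow_mul_exp_neg_mul_atTop_nhds_zero 1 3 (by norm_num)
      have := ((e0.const_mul (1 / 3 * Real.exp (2 / 3))).add
        (e1.const_mul (2 / 3 * Real.exp (2 / 3)))).neg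
      simp only [mul_zero, add_zero, neg_zero] at this
      refine this.congr (fun t => ?_)
      rw [Real.rpow_zero, Real.rpow_one, sub_eq_add_neg, Real.exp_add]
      have : -(3 * t) = -3 * t := by ring
      rw [this]
      ring
    rw [h1, integral_Ioi_of_hasDerivAt_of_nonneg' hderiv hpos hlim]
    have : (2 / 3 - 3 * (1 / 3) : ℝ) = -(1 / 3) := by norm_num
    rw [this]
    ring
  rw [hA, hB]
  ring

end Crest.Agent.Helper4
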