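import Mathlib
import Crest.Prelude.Def_TruncExpWeight
import Crest.Agent.Helper4.ExpLaw
import Crest.Agent.Helper4.TruncExp

/-!
# Second conjunct of S0423: the supremum is approached (helper4)

With `a = (2, -2/n, …, -2/n)` (`n = m²` copies) the linear form `4/3 + Σ a_i X_i` is within
`(2/n) |Σ_{j} (X_j - 1)|` of `-2/3 + 2 X_0`, the weight is 1-Lipschitz and the variance of a sum of
`n` independent exponentials is `n`; so the expectation is at least `1 - (4/9) e^{-1/3} - 2/m`.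
-/

set_option autoImplicit false

open MeasureTheory Real Set ProbabilityTheory
open scoped ENNReal

namespace Crest.Agent.Helper4

open Crest.AlgGeometry

/-- Second moment of a centred sum of distinct coordinates under the product exponential law. -/
lemma integral_sq_sum_sub_one {ι κ : Type*} [Fintype ι] [Fintype κ] (e : κ → ι)
    (he : Function.Injective e) :
    ∫ x, (∑ k, (x (e k) - 1)) ^ 2 ∂(Measure.pi fun _ : ι => expLaw) = (Fintype.card κ : ℝ) := by
  set μ : Measure (ι → ℝ) := Measure.pi fun _ : ι => expLaw with hμ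
  let X : κ → (ι → ℝ) → ℝ := fun k x => x (e k) - 1
  have hmeas : ∀ k, Measurable (X k) := fun k => by fun_prop
  have hL2 : ∀ k, MemLp (X k) 2 μ := fun k =>
    memLp_sub_one_expLaw.comp_measurePreserving (measurePreserving_eval _ (e k))
  have hindep : ProbabilityTheory.iIndepFun (fun (i : ι) (ω : ι → ℝ) => ω i - 1) μ :=
    ProbabilityTheory.iIndepFun_pi (X := fun _ t => t - 1) (μ := fun _ : ι => expLaw)
      (fun i => by fun_prop)
  have hmean : ∀ k, ∫ x, X k x ∂μ = 0 := by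
    intro k
    have := integral_comp_eval (μ := fun _ : ι => expLaw) (i := e k) (f := fun t : ℝ => t - 1)
      (by fun_prop)
    rw [integral_sub_one_expLaw] at this
    exact this
  have hvar : ∀ k, Var[X k; μ] = 1 := by
    intro k
    rw [variance_of_integral_eq_zero (hmeas k).aemeasurable (hmean k)]
    have := integral_comp_eval (μ := fun _ : ι => expLaw) (i := e k)
      (f := fun t : ℝ => (t - 1) ^ 2) (by fun_prop)
    rw [integral_sub_one_sq_expLaw] at this
    exact this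
  have hsum : Var[∑ k ∈ Finset.univ, X k; μ] = ∑ k ∈ Finset.univ, Var[X k; μ] := by
    refine IndepFun.variance_sum (fun k _ => hL2 k) ?_
    intro j _ k _ hjk
    exact hindep.indepFun (he.ne hjk)
  have hmeansum : ∫ x, (∑ k ∈ Finset.univ, X k) x ∂μ = 0 := by
    simp only [Finset.sum_apply]
    rw [integral_finsetSum _ (fun k _ => (hL2 k).integrable (by norm_num))]
    simp [hmean]
  have hfun : (∑ k ∈ Finset.univ, X k) = fun x => ∑ k ∈ Finset.univ, X k x := by
    funext x; simp only [Finset.sum_apply]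
  have hmS : Measurable (∑ k ∈ Finset.univ, X k) := by
    rw [hfun]; exact Finset.measurable_sum _ (fun k _ => hmeas k)
  rw [variance_of_integral_eq_zero hmS.aemeasurable hmeansum] at hsum
  simp only [hvar, Finset.sum_apply, Finset.sum_const, Finset.card_univ, nsmul_eq_mul,
    mul_one] at hsum
  exact hsum

/-- The near-extremal coefficient vector `(2, -2/m², …, -2/m²)` on `Fin (m² + 1)`. -/
noncomputable def nearExtremal (m : ℕ) : Fin (m ^ 2 + 1) → ℝ :=
  Fin.cons 2 (fun _ => -2 / ((m : ℝ) ^ 2))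

lemma sum_nearExtremal {m : ℕ} (hm : 0 < m) : ∑ i, nearExtremal m i = 0 := by
  have hm' : (m : ℝ) ≠ 0 := Nat.cast_ne_zero.mpr hm.ne'
  unfold nearExtremal
  rw [Fin.sum_univ_succ]
  simp only [Fin.cons_zero, Fin.cons_succ, Finset.sum_const, Finset.card_univ, Fintype.card_fin,
    nsmul_eq_mul, Nat.cast_pow]
  field_simp
  ring

lemma sum_nearExtremal_mul {m : ℕ} (hm : 0 < m) (x : Fin (m ^ 2 + 1) → ℝ) :
    4 / 3 + ∑ i, nearExtremal m i * x i
      = (-2 / 3 + 2 * x 0) + -(2 / (m : ℝ) ^ 2) * ∑ j : Fin (m ^ 2), (x j.succ - 1) := by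
  have hm' : (m : ℝ) ≠ 0 := Nat.cast_ne_zero.mpr hm.ne'
  unfold nearExtremal
  rw [Fin.sum_univ_succ]
  simp only [Fin.cons_zero, Fin.cons_succ, Finset.sum_sub_distrib, Finset.sum_const,
    Finset.card_univ, Fintype.card_fin, nsmul_eq_mul, Nat.cast_pow, mul_one, ← Finset.mul_sum]
  field_simp
  ring

/-- Key lower bound for the expectation at the near-extremal coefficients. -/
lemma lower_key {m : ℕ} (hm : 0 < m) :
    1 - 4 / 9 * Real.exp (-(1 / 3)) - 2 / (m : ℝ) ≤
      ∫ x, truncExpWeight (4 / 3 + ∑ i, nearExtremal m i * x i)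
        ∂(Measure.pi fun _ : Fin (m ^ 2 + 1) => expLaw) := by
  have hm0 : (0 : ℝ) < m := Nat.cast_pos.mpr hm
  have hm' : (m : ℝ) ≠ 0 := hm0.ne'
  set μ : Measure (Fin (m ^ 2 + 1) → ℝ) := Measure.pi fun _ : Fin (m ^ 2 + 1) => expLaw with hμ
  let S : (Fin (m ^ 2 + 1) → ℝ) → ℝ := fun x => ∑ j : Fin (m ^ 2), (x j.succ - 1)
  have hSmeas : Measurable S := by fun_prop
  -- second moment of S
  have hS2 : ∫ x, S x ^ 2 ∂μ = (m : ℝ) ^ 2 := by
    have := integral_sq_sum_sub_one (ι := Fin (m ^ 2 + 1)) (κ := Fin (m ^ 2)) Fin.succ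
      (Fin.succ_injective _)
    rw [Fintype.card_fin] at this
    rw [this]; push_cast; ring
  have hS2int : Integrable (fun x => S x ^ 2) μ := by
    have hL2 : MemLp S 2 μ := by
      refine memLp_finsetSum _ (fun j _ => ?_)
      exact memLp_sub_one_expLaw.comp_measurePreserving (measurePreserving_eval _ j.succ)
    exact (memLp_two_iff_integrable_sq hSmeas.aestronglyMeasurable).mp hL2
  -- main term
  have hmain : ∫ x, truncExpWeight (-2 / 3 + 2 * x 0) ∂μ = 1 - 4 / 9 * Real.exp (-(1 / 3)) := by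
    have := integral_comp_eval (μ := fun _ : Fin (m ^ 2 + 1) => expLaw) (i := 0)
      (f := fun t : ℝ => truncExpWeight (-2 / 3 + 2 * t))
      ((measurable_truncExpWeight.comp (by fun_prop)).aestronglyMeasurable)
    rw [integral_truncExpWeight_extremal] at this
    exact this
  have hmainint : Integrable (fun x : Fin (m ^ 2 + 1) → ℝ => truncExpWeight (-2 / 3 + 2 * x 0)) μ :=
    integrable_truncExpWeight_comp μ (by fun_prop)
  have hYint : Integrable (fun x : Fin (m ^ 2 + 1) → ℝ =>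
      truncExpWeight (4 / 3 + ∑ i, nearExtremal m i * x i)) μ :=
    integrable_truncExpWeight_comp μ (by fun_prop)
  -- pointwise bound
  have hpt : ∀ x : Fin (m ^ 2 + 1) → ℝ,
      truncExpWeight (-2 / 3 + 2 * x 0) - (S x ^ 2 / (m : ℝ) ^ 3 + 1 / (m : ℝ))
        ≤ truncExpWeight (4 / 3 + ∑ i, nearExtremal m i * x i) := by
    intro x
    have h1 := truncExpWeight_sub_le (4 / 3 + ∑ i, nearExtremal m i * x i) (-2 / 3 + 2 * x 0)
    rw [sum_nearExtremal_mul hm x] at h1 ⊢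
    have h2 : |(-2 / 3 + 2 * x 0) + -(2 / (m : ℝ) ^ 2) * S x - (-2 / 3 + 2 * x 0)|
        ≤ S x ^ 2 / (m : ℝ) ^ 3 + 1 / (m : ℝ) := by
      have e1 : (-2 / 3 + 2 * x 0) + -(2 / (m : ℝ) ^ 2) * S x - (-2 / 3 + 2 * x 0)
          = -(2 / (m : ℝ) ^ 2) * S x := by ring
      rw [e1, abs_mul, abs_neg, abs_of_pos (by positivity : (0 : ℝ) < 2 / (m : ℝ) ^ 2)]
      have h3 : 0 ≤ (|S x| - (m : ℝ)) ^ 2 := sq_nonneg _
      have h4 : |S x| ^ 2 = S x ^ 2 := sq_abs _
      have h5 : 2 * (m : ℝ) * |S x| ≤ S x ^ 2 + (m : ℝ) ^ 2 := by nlinarith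
      have e2 : S x ^ 2 / (m : ℝ) ^ 3 + 1 / (m : ℝ) = (S x ^ 2 + (m : ℝ) ^ 2) / (m : ℝ) ^ 3 := by
        field_simp
      have e3 : 2 / (m : ℝ) ^ 2 * |S x| = (2 * (m : ℝ) * |S x|) / (m : ℝ) ^ 3 := by
        field_simp
      rw [e2, e3]
      exact div_le_div_of_nonneg_right h5 (by positivity)
    show truncExpWeight (-2 / 3 + 2 * x 0) - (S x ^ 2 / (m : ℝ) ^ 3 + 1 / (m : ℝ))
        ≤ truncExpWeight ((-2 / 3 + 2 * x 0) + -(2 / (m : ℝ) ^ 2) * S x)
    have h1' : truncExpWeight (-2 / 3 + 2 * x 0)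
        - |(-2 / 3 + 2 * x 0) + -(2 / (m : ℝ) ^ 2) * S x - (-2 / 3 + 2 * x 0)|
        ≤ truncExpWeight ((-2 / 3 + 2 * x 0) + -(2 / (m : ℝ) ^ 2) * S x) := h1
    linarith
  -- integrate
  have hdivint : Integrable (fun x => S x ^ 2 / (m : ℝ) ^ 3) μ := hS2int.div_const _
  have hcint : Integrable (fun _ : Fin (m ^ 2 + 1) → ℝ => 1 / (m : ℝ)) μ := integrable_const _
  have hrint : Integrable (fun x => S x ^ 2 / (m : ℝ) ^ 3 + 1 / (m : ℝ)) μ := hdivint.add hcint
  have hlow : ∫ x, (truncExpWeight (-2 / 3 + 2 * x 0) - (S x ^ 2 / (m : ℝ) ^ 3 + 1 / (m : ℝ))) ∂μ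
      ≤ ∫ x, truncExpWeight (4 / 3 + ∑ i, nearExtremal m i * x i) ∂μ :=
    integral_mono (hmainint.sub hrint) hYint hpt
  have hval : ∫ x, (truncExpWeight (-2 / 3 + 2 * x 0) - (S x ^ 2 / (m : ℝ) ^ 3 + 1 / (m : ℝ))) ∂μ
      = 1 - 4 / 9 * Real.exp (-(1 / 3)) - 2 / (m : ℝ) := by
    rw [integral_sub hmainint hrint, integral_add hdivint hcint, integral_div, hS2, hmain,
      integral_const]
    rw [probReal_univ]
    simp only [smul_eq_mul, one_mul]
    field_simp
    ring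
  rw [← hval]
  exact hlow

/-- **Second conjunct of S0423**: the value `(3/4) e^{4/3} - e/3` is approached. -/
theorem s0423_lower :
    ∀ ε : ℝ, 0 < ε → ∃ (N : ℕ) (a : Fin N → ℝ), 1 ≤ N ∧ ∑ i, a i = 0 ∧
      3 / 4 * Real.exp (4 / 3) - Real.exp 1 / 3 - ε <
        Real.exp (4 / 3) / (4 / 3) *
          ∫ x in Set.pi Set.univ (fun _ : Fin N => Set.Ioi (0 : ℝ)),
            Crest.AlgGeometry.truncExpWeight (4 / 3 + ∑ i, a i * x i) * Real.exp (-∑ i, x i) := by
  intro ε hε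
  have hKpos : (0 : ℝ) < Real.exp (4 / 3) / (4 / 3) := by positivity
  obtain ⟨m, hm⟩ := exists_nat_gt (2 * (Real.exp (4 / 3) / (4 / 3)) / ε)
  have hm0 : (0 : ℝ) < m := lt_trans (by positivity) hm
  have hmpos : 0 < m := Nat.cast_pos.mp hm0
  refine ⟨m ^ 2 + 1, nearExtremal m, Nat.le_add_left 1 _, sum_nearExtremal hmpos, ?_⟩
  rw [setIntegral_pi_Ioi_eq_integral_piExp (m ^ 2 + 1)
    (fun x => truncExpWeight (4 / 3 + ∑ i, nearExtremal m i * x i))]
  have key := lower_key hmpos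
  have h1 : Real.exp (4 / 3) / (4 / 3) * (1 - 4 / 9 * Real.exp (-(1 / 3)) - 2 / (m : ℝ))
      ≤ Real.exp (4 / 3) / (4 / 3) * ∫ x, truncExpWeight (4 / 3 + ∑ i, nearExtremal m i * x i)
        ∂(Measure.pi fun _ : Fin (m ^ 2 + 1) => expLaw) :=
    mul_le_mul_of_nonneg_left key hKpos.le
  have h2 : Real.exp (4 / 3) * Real.exp (-(1 / 3)) = Real.exp 1 := by
    rw [← Real.exp_add]; norm_num
  have h3 : 2 * (Real.exp (4 / 3) / (4 / 3)) / (m : ℝ) < ε := by
    rw [div_lt_iff₀ hm0]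
    rw [div_lt_iff₀ hε] at hm
    linarith
  have h4 : Real.exp (4 / 3) / (4 / 3) * (1 - 4 / 9 * Real.exp (-(1 / 3)) - 2 / (m : ℝ))
      = 3 / 4 * Real.exp (4 / 3) - Real.exp 1 / 3 - 2 * (Real.exp (4 / 3) / (4 / 3)) / (m : ℝ) := by
    rw [← h2]
    field_simp
    ring
  linarith

end Crest.Agent.Helper4
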