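import Mathlib
import Crest.Agent.Helper7.S0423Defs

/-!
# The needle is in the class, and its mean (helper4; insurance copy of package D remainder)
-/

set_option autoImplicit false

open MeasureTheory Real Set

namespace Crest.Agent.Helper4

open Crest.Agent.Helper7

lemma needle_of_le {a b t : ℝ} (ha : 0 < a) (h : t ≤ -b) : needle a b t = 1 := by
  unfold needle
  refine min_eq_left ?_
  rw [Real.one_le_exp_iff]
  have : 0 ≤ -(t + b) := by linarith
  positivity

lemma needle_of_ge {a b t : ℝ} (ha : 0 < a) (h : -b ≤ t) :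
    needle a b t = Real.exp (-(t + b) / a) := by
  unfold needle
  refine min_eq_right ?_
  rw [Real.exp_le_one_iff]
  have : -(t + b) ≤ 0 := by linarith
  exact div_nonpos_of_nonpos_of_nonneg this ha.le

lemma needle_pos (a b t : ℝ) : 0 < needle a b t := lt_min one_pos (Real.exp_pos _)

lemma needle_le_one (a b t : ℝ) : needle a b t ≤ 1 := min_le_left _ _

lemma continuous_needle (a b : ℝ) : Continuous (needle a b) := by
  unfold needle
  fun_prop

lemma antitone_needle {a : ℝ} (ha : 0 < a) (b : ℝ) : Antitone (needle a b) := by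
  intro s t hst
  unfold needle
  refine min_le_min le_rfl (Real.exp_le_exp.mpr ?_)
  exact div_le_div_of_nonneg_right (by linarith) ha.le

lemma log_needle (a b t : ℝ) : Real.log (needle a b t) = min 0 (-(t + b) / a) := by
  unfold needle
  rcases le_total 1 (Real.exp (-(t + b) / a)) with h | h
  · rw [min_eq_left h, Real.log_one, min_eq_left]
    exact (Real.one_le_exp_iff).mp h
  · rw [min_eq_right h, Real.log_exp, min_eq_right]
    exact (Real.exp_le_one_iff).mp h

lemma logconc_needle (a b : ℝ) :
    ConcaveOn ℝ Set.univ (fun t => Real.log (needle a b t)) := by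
  have h : (fun t => Real.log (needle a b t)) = fun t => min (0 : ℝ) (-(t + b) / a) :=
    funext (log_needle a b)
  rw [h]
  have h1 : ConcaveOn ℝ Set.univ (fun _ : ℝ => (0 : ℝ)) := concaveOn_const 0 convex_univ
  have h2 : ConcaveOn ℝ Set.univ (fun t : ℝ => -(t + b) / a) := by
    have : (fun t : ℝ => -(t + b) / a) = fun t : ℝ => (-1 / a) * t + (-b / a) := by
      funext t; ring
    rw [this]
    refine ⟨convex_univ, fun x _ y _ p q _ _ hpq => ?_⟩
    simp only [smul_eq_mul]
    have : (-1 / a) * (p * x + q * y) + (-b / a)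
        = p * ((-1 / a) * x + (-b / a)) + q * ((-1 / a) * y + (-b / a))
          + (1 - (p + q)) * (-b / a) := by ring
    rw [this, hpq]
    simp
  exact h1.inf h2

/-- The first piece: `needle a b - 1_{t < -b}` is `exp (-(t+b)/a)` on `[-b, ∞)`. -/
lemma integrableOn_exp_needle {a : ℝ} (ha : 0 < a) (b : ℝ) :
    IntegrableOn (fun t : ℝ => Real.exp (-(t + b) / a)) (Ioi (-b)) := by
  have h := exp_neg_integrableOn_Ioi (-b) (b := 1 / a) (by positivity)
  have e : (fun t : ℝ => Real.exp (-(t + b) / a))
      = fun t : ℝ => Real.exp (-b / a) * Real.exp (-(1 / a) * t) := by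
    funext t
    rw [← Real.exp_add]
    congr 1
    ring
  rw [e]
  exact h.const_mul _

lemma integral_exp_needle {a : ℝ} (ha : 0 < a) (b : ℝ) :
    ∫ t in Ioi (-b), Real.exp (-(t + b) / a) = a := by
  have hderiv : ∀ x ∈ Ici (-b),
      HasDerivAt (fun t : ℝ => -a * Real.exp (-(t + b) / a)) (Real.exp (-(x + b) / a)) x := by
    intro x _
    have h1 : HasDerivAt (fun t : ℝ => -(t + b) / a) (-1 / a) x := by
      have := ((hasDerivAt_id x).add_const b).neg.div_const a
      simpa using this
    have h2 := ((Real.hasDerivAt_exp _).comp x h1).const_mul (-a)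
    have e : -a * (Real.exp (-(x + b) / a) * (-1 / a)) = Real.exp (-(x + b) / a) := by
      field_simp
    rw [e] at h2
    exact h2
  have hlim : Filter.Tendsto (fun t : ℝ => -a * Real.exp (-(t + b) / a)) Filter.atTop (nhds 0) := by
    have h1 : Filter.Tendsto (fun t : ℝ => -(t + b) / a) Filter.atTop Filter.atBot := by
      have : (fun t : ℝ => -(t + b) / a) = fun t : ℝ => (-1 / a) * t + (-b / a) := by
        funext t; ring
      rw [this]
      refine Filter.tendsto_atBot_add_const_right _ _ ?_
      exact Filter.Tendsto.const_mul_atTop_of_neg (by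
        have : 0 < 1 / a := by positivity
        have e : -1 / a = -(1 / a) := by ring
        rw [e]; linarith) Filter.tendsto_id
    have h2 := (Real.tendsto_exp_atBot.comp h1).const_mul (-a)
    simpa using h2
  rw [integral_Ioi_of_hasDerivAt_of_tendsto' hderiv (integrableOn_exp_needle ha b) hlim]
  have : -(-b + b) / a = 0 := by simp
  rw [this, Real.exp_zero]
  ring

/-- Decomposition of `needle a b - ind0` into an exponential tail and two bounded indicators. -/
lemma needle_sub_ind0_eq {a : ℝ} (ha : 0 < a) (b t : ℝ) :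
    needle a b t - ind0 t =
      (Ioi (-b)).indicator (fun t => Real.exp (-(t + b) / a)) t
        + ((Ioc (-|b| - 1) (-b)).indicator (fun _ => (1 : ℝ)) t
          - (Ioo (-|b| - 1) 0).indicator (fun _ => (1 : ℝ)) t) := by
  have hc1 : -|b| - 1 < -b := by have := le_abs_self b; linarith
  have hc2 : -|b| - 1 < 0 := by have := abs_nonneg b; linarith
  by_cases h1 : t ≤ -b
  · rw [needle_of_le ha h1, Set.indicator_of_notMem (fun h : t ∈ Ioi (-b) => absurd h (not_lt.mpr h1))]
    by_cases h2 : t ≤ -|b| - 1
    · have h3 : t < 0 := by linarith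
      rw [Set.indicator_of_notMem (fun h : t ∈ Ioc (-|b| - 1) (-b) => absurd h.1 (not_lt.mpr h2)),
        Set.indicator_of_notMem (fun h : t ∈ Ioo (-|b| - 1) 0 => absurd h.1 (not_lt.mpr h2))]
      unfold ind0
      rw [if_pos h3]
      ring
    · have h2' : -|b| - 1 < t := not_le.mp h2
      rw [Set.indicator_of_mem (show t ∈ Ioc (-|b| - 1) (-b) from ⟨h2', h1⟩)]
      by_cases h3 : t < 0
      · rw [Set.indicator_of_mem (show t ∈ Ioo (-|b| - 1) 0 from ⟨h2', h3⟩)]
        unfold ind0
        rw [if_pos h3]
        ring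
      · rw [Set.indicator_of_notMem (fun h : t ∈ Ioo (-|b| - 1) 0 => h3 h.2)]
        unfold ind0
        rw [if_neg h3]
        ring
  · have h1' : -b < t := not_le.mp h1
    rw [needle_of_ge ha h1'.le, Set.indicator_of_mem (show t ∈ Ioi (-b) from h1'),
      Set.indicator_of_notMem (fun h : t ∈ Ioc (-|b| - 1) (-b) => absurd h.2 (not_le.mpr h1'))]
    have h2 : -|b| - 1 < t := by linarith
    by_cases h3 : t < 0
    · rw [Set.indicator_of_mem (show t ∈ Ioo (-|b| - 1) 0 from ⟨h2, h3⟩)]
      unfold ind0
      rw [if_pos h3]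
      ring
    · rw [Set.indicator_of_notMem (fun h : t ∈ Ioo (-|b| - 1) 0 => h3 h.2)]
      unfold ind0
      rw [if_neg h3]
      ring

lemma integrable_needle_pieces {a : ℝ} (ha : 0 < a) (b : ℝ) :
    Integrable ((Ioi (-b)).indicator (fun t : ℝ => Real.exp (-(t + b) / a))) ∧
    Integrable ((Ioc (-|b| - 1) (-b)).indicator (fun _ : ℝ => (1 : ℝ))) ∧
    Integrable ((Ioo (-|b| - 1) 0).indicator (fun _ : ℝ => (1 : ℝ))) := by
  refine ⟨(integrableOn_exp_needle ha b).integrable_indicator measurableSet_Ioi, ?_, ?_⟩
  · exact (integrableOn_const (by simp)).integrable_indicator measurableSet_Ioc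
  · exact (integrableOn_const (by simp)).integrable_indicator measurableSet_Ioo

lemma integrable_needle_sub_ind0 {a : ℝ} (ha : 0 < a) (b : ℝ) :
    Integrable (fun t => needle a b t - ind0 t) := by
  obtain ⟨h1, h2, h3⟩ := integrable_needle_pieces ha b
  have := h1.add (h2.sub h3)
  refine this.congr (Filter.Eventually.of_forall fun t => ?_)
  simp only [Pi.add_apply, Pi.sub_apply]
  exact (needle_sub_ind0_eq ha b t).symm

/-- The needle is in the class. -/
theorem needle_isSurv (a b : ℝ) (ha : 0 < a) : IsSurv (needle a b) where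
  cont := continuous_needle a b
  pos := needle_pos a b
  le_one := needle_le_one a b
  anti := antitone_needle ha b
  logconc := logconc_needle a b
  integrable := integrable_needle_sub_ind0 ha b

/-- The mean of the needle. -/
theorem needle_smean (a b : ℝ) (ha : 0 < a) : smean (needle a b) = a - b := by
  obtain ⟨h1, h2, h3⟩ := integrable_needle_pieces ha b
  have hc1 : -|b| - 1 ≤ -b := by have := le_abs_self b; linarith
  have hc2 : -|b| - 1 ≤ 0 := by have := abs_nonneg b; linarith
  unfold smean
  have e : (fun t => needle a b t - ind0 t) =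
      (Ioi (-b)).indicator (fun t => Real.exp (-(t + b) / a))
        + ((Ioc (-|b| - 1) (-b)).indicator (fun _ => (1 : ℝ))
          - (Ioo (-|b| - 1) 0).indicator (fun _ => (1 : ℝ))) := by
    funext t
    simp only [Pi.add_apply, Pi.sub_apply]
    exact needle_sub_ind0_eq ha b t
  rw [e, integral_add' h1 (h2.sub h3), integral_sub' h2 h3, integral_indicator measurableSet_Ioi,
    integral_indicator measurableSet_Ioc, integral_indicator measurableSet_Ioo,
    integral_exp_needle ha b, setIntegral_const, setIntegral_const, Real.volume_real_Ioc_of_le hc1,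
    Real.volume_real_Ioo_of_le hc2]
  simp only [smul_eq_mul, mul_one]
  ring

end Crest.Agent.Helper4
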